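import Vale.Agent.P030.H486.Nv

/-!
# P030, the 2-adic place: `Σ 2^k/k = 0` in `ℚ_2`, with rate
-/

namespace Vale.Agent.P030.H486

open PowerSeries Finset

theorem inv_choose_add (n i : ℕ) (hi : i ≤ n) :
    1 / ((n + 1).choose i : ℚ) + 1 / ((n + 1).choose (i + 1) : ℚ)
      = ((n : ℚ) + 2) / (n + 1) * (1 / (n.choose i : ℚ)) := by
  have h1 : (((n + 1 : ℕ) : ℚ)) * (n.choose i : ℚ) = ((n + 1).choose (i + 1) : ℚ) * ((i : ℚ) + 1) := by
    exact_mod_cast Nat.add_one_mul_choose_eq n i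
  have h2 : (n.choose i : ℚ) * ((n : ℚ) + 1) = ((n + 1).choose i : ℚ) * ((n : ℚ) + 1 - i) := by
    have := Nat.choose_mul_succ_eq n i
    have h3 : ((n + 1 - i : ℕ) : ℚ) = (n : ℚ) + 1 - i := by
      rw [Nat.cast_sub (by omega)]; push_cast; ring
    rw [← h3]
    exact_mod_cast this
  have hc : (n.choose i : ℚ) ≠ 0 := by exact_mod_cast (Nat.choose_pos hi).ne'
  have hn : (n : ℚ) + 1 ≠ 0 := by positivity
  have ha : ((n + 1).choose i : ℚ) ≠ 0 := by exact_mod_cast (Nat.choose_pos (by omega)).ne'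
  have hb : ((n + 1).choose (i + 1) : ℚ) ≠ 0 := by exact_mod_cast (Nat.choose_pos (by omega)).ne'
  have e1 : 1 / ((n + 1).choose i : ℚ) = ((n : ℚ) + 1 - i) / ((n.choose i : ℚ) * ((n : ℚ) + 1)) := by
    rw [h2]
    have : (n : ℚ) + 1 - i ≠ 0 := by
      have : (i : ℚ) ≤ n := by exact_mod_cast hi
      linarith
    field_simp
  have e2 : 1 / ((n + 1).choose (i + 1) : ℚ) = ((i : ℚ) + 1) / ((n.choose i : ℚ) * ((n : ℚ) + 1)) := by
    push_cast at h1
    rw [mul_comm (n.choose i : ℚ), h1]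
    have : (i : ℚ) + 1 ≠ 0 := by positivity
    field_simp
  rw [e1, e2]
  field_simp
  ring

theorem sum_inv_choose_succ (n : ℕ) :
    ∑ i ∈ range (n + 2), 1 / ((n + 1).choose i : ℚ)
      = ((n : ℚ) + 2) / (2 * (n + 1)) * ∑ i ∈ range (n + 1), 1 / (n.choose i : ℚ) + 1 := by
  have h1 : ∑ i ∈ range (n + 1), (1 / ((n + 1).choose i : ℚ) + 1 / ((n + 1).choose (i + 1) : ℚ))
      = ((n : ℚ) + 2) / (n + 1) * ∑ i ∈ range (n + 1), 1 / (n.choose i : ℚ) := by
    rw [mul_sum]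
    exact sum_congr rfl fun i hi => inv_choose_add n i (by have := mem_range.1 hi; omega)
  rw [sum_add_distrib] at h1
  have h2 := sum_range_succ (fun i => 1 / ((n + 1).choose i : ℚ)) (n + 1)
  have h3 := sum_range_succ' (fun i => 1 / ((n + 1).choose i : ℚ)) (n + 1)
  simp only [Nat.choose_self, Nat.choose_zero_right, Nat.cast_one, div_one] at h2 h3
  have h4 : ((n : ℚ) + 2) / (2 * (n + 1)) = ((n : ℚ) + 2) / (n + 1) / 2 := by
    have : (n : ℚ) + 1 ≠ 0 := by positivity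
    field_simp
  rw [h4]
  linarith

theorem sum_two_pow_div (m : ℕ) :
    ∑ k ∈ range (m + 1), (2 : ℚ) ^ (k + 1) / (k + 1)
      = 2 ^ (m + 1) / (m + 1) * ∑ i ∈ range (m + 1), 1 / (m.choose i : ℚ) := by
  induction m with
  | zero => simp
  | succ m ih =>
    rw [sum_range_succ, ih, sum_inv_choose_succ m]
    have h1 : (m : ℚ) + 1 ≠ 0 := by positivity
    have h2 : (m : ℚ) + 2 ≠ 0 := by positivity
    have h3 : (m : ℚ) + 1 + 1 ≠ 0 := by positivity
    push_cast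
    field_simp
    ring

theorem nv_inv_choose (m i : ℕ) (hi : i ≤ m) : nv (1 / (m.choose i : ℚ)) ≤ (m : ℝ) + 1 := by
  have hc : m.choose i ≠ 0 := (Nat.choose_pos hi).ne'
  have h1 : nv ((m.choose i : ℕ) : ℚ) = ((2 : ℕ) : ℝ) ^ (-(padicValNat 2 (m.choose i) : ℤ)) := by
    have : nv ((m.choose i : ℕ) : ℚ) = ‖(((m.choose i : ℕ) : ℚ) : ℚ_[2])‖ := rfl
    rw [this, Padic.eq_padicNorm, padicNorm.eq_zpow_of_nonzero (by exact_mod_cast hc)]
    simp
  rw [nv_div, nv_one, h1, one_div, ← zpow_neg, neg_neg, zpow_natCast]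
  have h2 : padicValNat 2 (m.choose i) ≤ Nat.log 2 m := by
    rw [← Nat.factorization_def _ Nat.prime_two]
    exact Nat.factorization_choose_le_log
  have h3 : 2 ^ padicValNat 2 (m.choose i) ≤ m + 1 := by
    rcases Nat.eq_zero_or_pos m with hm | hm
    · subst hm
      have : i = 0 := by omega
      subst this
      simp
    · exact ((Nat.pow_le_pow_right (by norm_num) h2).trans (Nat.pow_log_le_self 2 hm.ne')).trans
        (by omega)
  exact_mod_cast h3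

theorem nv_sum_two_pow (N : ℕ) :
    nv (∑ k ∈ range N, (2 : ℚ) ^ (k + 1) / (k + 1)) ≤ (1 / 2) ^ N * ((N : ℝ) + 1) ^ 2 := by
  rcases N with _ | m
  · simp
  · rw [sum_two_pow_div, nv_mul, nv_div, nv_two_pow]
    have h1 : nv (∑ i ∈ range (m + 1), 1 / (m.choose i : ℚ)) ≤ (m : ℝ) + 1 :=
      nv_sum_le _ _ (by positivity) fun i hi =>
        nv_inv_choose m i (by have := mem_range.1 hi; omega)
    have h2 : (nv ((m : ℚ) + 1))⁻¹ ≤ (m : ℝ) + 1 := by
      have := nv_nat_inv (m + 1) (by omega)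
      rw [nv_div, nv_one, one_div] at this
      exact_mod_cast this
    have h3 : 0 ≤ (nv ((m : ℚ) + 1))⁻¹ := inv_nonneg.2 (nv_nonneg _)
    rw [div_eq_mul_inv]
    push_cast
    have h4 : (0 : ℝ) ≤ (1 / 2) ^ (m + 1) := by positivity
    calc (1 / 2 : ℝ) ^ (m + 1) * (nv ((m : ℚ) + 1))⁻¹ * nv (∑ i ∈ range (m + 1), 1 / (m.choose i : ℚ))
        ≤ (1 / 2 : ℝ) ^ (m + 1) * ((m : ℝ) + 1) * ((m : ℝ) + 1) := by
          refine mul_le_mul (mul_le_mul_of_nonneg_left h2 h4) h1 (nv_nonneg _) (by positivity)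
      _ = (1 / 2 : ℝ) ^ (m + 1) * ((m : ℝ) + 1) ^ 2 := by ring
      _ ≤ (1 / 2 : ℝ) ^ (m + 1) * ((m : ℝ) + 1 + 1) ^ 2 := by
          gcongr
          linarith

end Vale.Agent.P030.H486
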