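import Vale.Agent.P030.H486.Tail

/-!
# P030, the 2-adic place: forms of degree `n = D - 1` at the four cusps

A polynomial `p` in `S = 1/(1-u)` of degree at most `n` is evaluated homogeneously at the pair
`(S, 1)`: at the cusp `c` this is the pair `(cB c, cD c)` (`= (t S, t)` at `c3`).
-/

namespace Vale.Agent.P030.H486

open Finset
open Vale.Agent.P030.T

section hm

variable {R : Type*} [CommRing R] [Algebra ℚ R]

/-- homogeneous evaluation in degree `n` -/
noncomputable def hm (n : ℕ) (B δ : R) : Polynomial ℚ →ₗ[ℚ] R :=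
  ∑ j ∈ range (n + 1), (Polynomial.lcoeff ℚ j).smulRight (B ^ j * δ ^ (n - j))

theorem hm_apply (n : ℕ) (B δ : R) (p : Polynomial ℚ) :
    hm n B δ p = ∑ j ∈ range (n + 1), p.coeff j • (B ^ j * δ ^ (n - j)) := by
  simp [hm, LinearMap.sum_apply]

theorem hm_X_pow (n j : ℕ) (hj : j ≤ n) (B δ : R) :
    hm n B δ (Polynomial.X ^ j) = B ^ j * δ ^ (n - j) := by
  rw [hm_apply, sum_eq_single j]
  · simp
  · intro i _ hij
    simp [Polynomial.coeff_X_pow, hij]
  · intro h
    exact absurd (mem_range.2 (by omega)) h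

theorem hm_X_mul (n : ℕ) (B δ : R) (p : Polynomial ℚ) :
    hm (n + 1) B δ (Polynomial.X * p) = B * hm n B δ p := by
  rw [hm_apply, hm_apply, sum_range_succ', mul_sum]
  simp only [Polynomial.coeff_X_mul_zero, zero_smul, add_zero]
  refine sum_congr rfl fun j hj => ?_
  rw [Polynomial.coeff_X_mul, mul_smul_comm]
  congr 1
  have : n + 1 - (j + 1) = n - j := by omega
  rw [this, pow_succ]
  ring

theorem hm_succ (n : ℕ) (B δ : R) (p : Polynomial ℚ) (hp : p.natDegree ≤ n) :
    hm (n + 1) B δ p = δ * hm n B δ p := by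
  rw [hm_apply, hm_apply, sum_range_succ, Polynomial.coeff_eq_zero_of_natDegree_lt (by omega),
    zero_smul, add_zero, mul_sum]
  refine sum_congr rfl fun j hj => ?_
  have hj' := mem_range.1 hj
  rw [mul_smul_comm]
  congr 1
  have : n + 1 - j = (n - j) + 1 := by omega
  rw [this, pow_succ]
  ring

/-- the path basis: `(S-1)^g (2S-1)^m` -/
noncomputable def hp (g m : ℕ) : Polynomial ℚ :=
  (Polynomial.X - 1) ^ g * (Polynomial.C 2 * Polynomial.X - 1) ^ m

theorem hp_natDegree (g m : ℕ) : (hp g m).natDegree ≤ g + m := by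
  unfold hp
  refine (Polynomial.natDegree_mul_le).trans (add_le_add ?_ ?_)
  · refine (Polynomial.natDegree_pow_le_of_le g (?_ : _ ≤ 1)).trans (by simp)
    compute_degree
  · refine (Polynomial.natDegree_pow_le_of_le m (?_ : _ ≤ 1)).trans (by simp)
    compute_degree

theorem hm_hp (g m : ℕ) (B δ : R) :
    hm (g + m) B δ (hp g m) = (B - δ) ^ g * (2 * B - δ) ^ m := by
  induction g with
  | zero =>
    induction m with
    | zero =>
      have := hm_X_pow 0 0 le_rfl B δ
      simpa [hp] using this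
    | succ m ih =>
      have h1 : hp 0 (m + 1) = (2 : ℚ) • (Polynomial.X * hp 0 m) - hp 0 m := by
        rw [hp, hp, pow_succ, Polynomial.smul_eq_C_mul]
        ring
      have h2 := hm_succ (0 + m) B δ (hp 0 m) (hp_natDegree 0 m)
      rw [h1, ← add_assoc, map_sub, map_smul, hm_X_mul, h2, ih, pow_succ]
      have h3 : (2 : ℚ) • (B * ((B - δ) ^ 0 * (2 * B - δ) ^ m))
          = 2 * (B * ((B - δ) ^ 0 * (2 * B - δ) ^ m)) := by
        rw [Algebra.smul_def, map_ofNat]
      rw [h3]
      ring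
  | succ g ih =>
    have h1 : hp (g + 1) m = Polynomial.X * hp g m - hp g m := by
      rw [hp, hp, pow_succ]
      ring
    have h2 := hm_succ (g + m) B δ (hp g m) (hp_natDegree g m)
    have h3 : g + 1 + m = g + m + 1 := by omega
    rw [h1, h3, map_sub, hm_X_mul, h2, ih, pow_succ]
    ring

theorem natDegree_one_sub_X_pow (m : ℕ) :
    ((1 - Polynomial.X : Polynomial ℚ) ^ m).natDegree ≤ m := by
  refine (Polynomial.natDegree_pow_le_of_le m (?_ : _ ≤ 1)).trans (by simp)
  compute_degree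

theorem hm_one_sub (m k : ℕ) (A B : R) :
    hm (m + k) A B ((1 - Polynomial.X) ^ m) = B ^ k * (B - A) ^ m := by
  induction k with
  | zero =>
    induction m with
    | zero =>
      have := hm_X_pow 0 0 le_rfl A B
      simpa using this
    | succ m ih =>
      have h1 : ((1 - Polynomial.X : Polynomial ℚ) ^ (m + 1))
          = (1 - Polynomial.X) ^ m - Polynomial.X * (1 - Polynomial.X) ^ m := by ring
      have h2 := hm_succ m A B _ (natDegree_one_sub_X_pow m)
      rw [add_zero] at ih ⊢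
      rw [h1, map_sub, hm_X_mul, h2, ih]
      ring
  | succ k ih =>
    have h2 := hm_succ (m + k) A B _ ((natDegree_one_sub_X_pow m).trans (Nat.le_add_right m k))
    rw [← add_assoc, h2, ih]
    ring

end hm

/-- from polynomials in `S` to polynomials in `u` (divided by `(1-u)^n`) -/
noncomputable def psi (n : ℕ) (p : Polynomial ℚ) : Polynomial ℚ :=
  hm n (1 : Polynomial ℚ) (1 - Polynomial.X) p

theorem psi_natDegree (n : ℕ) (p : Polynomial ℚ) : (psi n p).natDegree ≤ n := by
  rw [psi, hm_apply]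
  refine Polynomial.natDegree_sum_le_of_forall_le _ _ fun j _ => ?_
  refine (Polynomial.natDegree_smul_le _ _).trans ?_
  rw [one_pow, one_mul]
  exact (natDegree_one_sub_X_pow _).trans (by omega)

theorem hm_psi {R : Type*} [CommRing R] [Algebra ℚ R] (n : ℕ) (A B : R) (p : Polynomial ℚ) :
    hm n A B (psi n p) = hm n B (B - A) p := by
  rw [psi, hm_apply n (1 : Polynomial ℚ), map_sum, hm_apply]
  refine sum_congr rfl fun j hj => ?_
  have hj' := mem_range.1 hj
  rw [map_smul, one_pow, one_mul]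
  congr 1
  have := hm_one_sub (n - j) j A B
  rwa [Nat.sub_add_cancel (by omega)] at this

/-! ### the four cusps -/

/-- `S - 1` (times `t` at `c3`) -/
noncomputable def cA : Fin 4 → PowerSeries ℚ :=
  ![PowerSeries.X * geo, -(PowerSeries.C (1 / 2) * (1 + PowerSeries.X)), -geo,
    -(PowerSeries.C (1 / 2) * (1 + PowerSeries.X))]

/-- `S` (times `t` at `c3`) -/
noncomputable def cB : Fin 4 → PowerSeries ℚ :=
  ![geo, PowerSeries.C (1 / 2) * (1 - PowerSeries.X), -(PowerSeries.X * geo),
    -(PowerSeries.C (1 / 2) * (1 - PowerSeries.X))]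

/-- `1` (times `t` at `c3`) -/
noncomputable def cD : Fin 4 → PowerSeries ℚ := ![1, 1, 1, PowerSeries.X]

theorem half_two : (PowerSeries.C (1 / 2 : ℚ) : PowerSeries ℚ) * 2 = 1 := by
  rw [← C_two, ← map_mul]; norm_num

theorem cB_sub_cA (c : Fin 4) : cB c - cA c = cD c := by
  fin_cases c
  · show geo - PowerSeries.X * geo = 1
    linear_combination geo_mul
  · show PowerSeries.C (1 / 2) * (1 - PowerSeries.X) - -(PowerSeries.C (1 / 2) * (1 + PowerSeries.X))
      = 1
    linear_combination half_two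
  · show -(PowerSeries.X * geo) - -geo = 1
    linear_combination geo_mul
  · show -(PowerSeries.C (1 / 2) * (1 - PowerSeries.X)) - -(PowerSeries.C (1 / 2) * (1 + PowerSeries.X))
      = PowerSeries.X
    linear_combination PowerSeries.X * half_two

theorem mon_eq (n : ℕ) (c : Fin 4) (i : ℕ) (hi : i ≤ n) :
    mon (n + 1) c i = cA c ^ i * cB c ^ (n - i) := by
  obtain ⟨m, rfl⟩ := Nat.exists_eq_add_of_le hi
  have e1 : i + m + 1 - 1 = i + m := by omega
  have e2 : i + m - i = m := by omega
  have e3 : i + m + 1 - 1 - i = m := by omega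
  fin_cases c
  · show PowerSeries.X ^ i * geo ^ (i + m + 1 - 1) = (PowerSeries.X * geo) ^ i * geo ^ (i + m - i)
    rw [e1, e2]; ring
  · show sc ((-1) ^ i / 2 ^ (i + m + 1 - 1)) ((1 + PowerSeries.X) ^ i
      * (1 - PowerSeries.X) ^ (i + m + 1 - 1 - i)) = (-(PowerSeries.C (1 / 2) * (1 + PowerSeries.X))) ^ i
        * (PowerSeries.C (1 / 2) * (1 - PowerSeries.X)) ^ (i + m - i)
    rw [e1, e2, sc]
    have h : (PowerSeries.C ((-1) ^ i / 2 ^ (i + m) : ℚ) : PowerSeries ℚ)
        = (-1) ^ i * PowerSeries.C (1 / 2) ^ i * PowerSeries.C (1 / 2) ^ m := by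
      have : ((-1) ^ i / 2 ^ (i + m) : ℚ) = (-1) ^ i * (1 / 2) ^ i * (1 / 2) ^ m := by
        rw [pow_add, one_div, inv_pow, inv_pow]; field_simp
      rw [this, map_mul, map_mul, map_pow, map_pow, map_pow, map_neg, map_one]
    rw [h, neg_pow (PowerSeries.C (1 / 2) * (1 + PowerSeries.X)), mul_pow, mul_pow]
    ring
  · show sc ((-1) ^ (i + m + 1 - 1)) (PowerSeries.X ^ (i + m + 1 - 1 - i) * geo ^ (i + m + 1 - 1))
      = (-geo) ^ i * (-(PowerSeries.X * geo)) ^ (i + m - i)
    rw [e1, e2, sc, map_pow, map_neg, map_one, neg_pow geo, neg_pow (PowerSeries.X * geo), mul_pow]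
    ring
  · show sc (1 / (-2) ^ (i + m + 1 - 1)) ((1 + PowerSeries.X) ^ i
      * (1 - PowerSeries.X) ^ (i + m + 1 - 1 - i)) = (-(PowerSeries.C (1 / 2) * (1 + PowerSeries.X))) ^ i
        * (-(PowerSeries.C (1 / 2) * (1 - PowerSeries.X))) ^ (i + m - i)
    rw [e1, e2, sc]
    have h : (PowerSeries.C (1 / (-2) ^ (i + m) : ℚ) : PowerSeries ℚ)
        = (-1) ^ i * PowerSeries.C (1 / 2) ^ i * ((-1) ^ m * PowerSeries.C (1 / 2) ^ m) := by
      have : (1 / (-2) ^ (i + m) : ℚ) = (-1) ^ i * (1 / 2) ^ i * ((-1) ^ m * (1 / 2) ^ m) := by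
        rw [← mul_pow, ← mul_pow, ← pow_add, ← one_div_pow]
        congr 1
        norm_num
      rw [this, map_mul, map_mul, map_mul, map_pow, map_pow, map_pow, map_pow, map_neg, map_one]
    rw [h, neg_pow (PowerSeries.C (1 / 2) * (1 + PowerSeries.X)),
      neg_pow (PowerSeries.C (1 / 2) * (1 - PowerSeries.X)), mul_pow, mul_pow]
    ring

/-- value of a polynomial in `S` at a cusp, through the rows `μ_i` of the matrix -/
theorem sum_psi_mon (n : ℕ) (c : Fin 4) (p : Polynomial ℚ) :
    ∑ i ∈ range (n + 1), (psi n p).coeff i • mon (n + 1) c i = hm n (cB c) (cD c) p := by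
  rw [← cB_sub_cA, ← hm_psi, hm_apply]
  exact sum_congr rfl fun i hi => by rw [mon_eq n c i (by have := mem_range.1 hi; omega)]

end Vale.Agent.P030.H486
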