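import Mathlib

/-!
# P030, the 2-adic place: 2-adic sizes of rational power series

`nv x = |x|_2`; `Bd a c f` : the coefficients of `f` satisfy `|f_k|_2 ≤ a (k+1)^c`.
-/

namespace Vale.Agent.P030.H486

open PowerSeries Finset

/-- the 2-adic absolute value of a rational number -/
noncomputable def nv (x : ℚ) : ℝ := ‖(x : ℚ_[2])‖

theorem nv_nonneg (x : ℚ) : 0 ≤ nv x := norm_nonneg _
@[simp] theorem nv_zero : nv 0 = 0 := by simp [nv]
@[simp] theorem nv_one : nv 1 = 1 := by simp [nv]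
theorem nv_mul (x y : ℚ) : nv (x * y) = nv x * nv y := by simp [nv]
theorem nv_pow (x : ℚ) (n : ℕ) : nv (x ^ n) = nv x ^ n := by simp [nv]
@[simp] theorem nv_neg (x : ℚ) : nv (-x) = nv x := by simp [nv]
theorem nv_inv (x : ℚ) : nv x⁻¹ = (nv x)⁻¹ := by simp [nv]
theorem nv_div (x y : ℚ) : nv (x / y) = nv x / nv y := by simp [nv]

theorem nv_sum_le {ι : Type*} (s : Finset ι) (f : ι → ℚ) {C : ℝ} (hC : 0 ≤ C)
    (h : ∀ i ∈ s, nv (f i) ≤ C) : nv (∑ i ∈ s, f i) ≤ C := by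
  unfold nv at *
  rw [Rat.cast_sum]
  exact IsUltrametricDist.norm_sum_le_of_forall_le_of_nonneg hC h

theorem nv_add_le {x y : ℚ} {C : ℝ} (hx : nv x ≤ C) (hy : nv y ≤ C) : nv (x + y) ≤ C := by
  unfold nv at *
  rw [Rat.cast_add]
  exact (IsUltrametricDist.norm_add_le_max _ _).trans (max_le hx hy)

@[simp] theorem nv_two : nv 2 = 1 / 2 := by
  have h : nv 2 = ‖((2 : ℕ) : ℚ_[2])‖ := by simp [nv]
  rw [h, Padic.norm_p]
  norm_num

theorem nv_int (n : ℤ) : nv (n : ℚ) ≤ 1 := by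
  have : nv (n : ℚ) = ‖(n : ℚ_[2])‖ := by simp [nv]
  rw [this]
  exact Padic.norm_int_le_one n

theorem nv_nat (n : ℕ) : nv (n : ℚ) ≤ 1 := by
  have := nv_int (n : ℤ)
  simpa using this

theorem nv_nat_inv (n : ℕ) (hn : n ≠ 0) : nv (1 / (n : ℚ)) ≤ n := by
  have h1 : nv (n : ℚ) = ((2 : ℕ) : ℝ) ^ (-(padicValNat 2 n : ℤ)) := by
    have : nv (n : ℚ) = ‖((n : ℚ) : ℚ_[2])‖ := rfl
    rw [this, Padic.eq_padicNorm, padicNorm.eq_zpow_of_nonzero (by exact_mod_cast hn)]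
    simp
  rw [nv_div, nv_one, h1, one_div, ← zpow_neg, neg_neg, zpow_natCast]
  have h2 : 2 ^ padicValNat 2 n ≤ n := Nat.le_of_dvd (Nat.pos_of_ne_zero hn) pow_padicValNat_dvd
  exact_mod_cast h2

theorem nv_two_pow (n : ℕ) : nv (2 ^ n) = (1 / 2) ^ n := by rw [nv_pow, nv_two]

theorem nv_half : nv (1 / 2) = 2 := by rw [nv_div, nv_one, nv_two]; norm_num

/-- the coefficients of `f` are at most `a (k+1)^c` -/
def Bd (a : ℝ) (c : ℕ) (f : ℚ⟦X⟧) : Prop := ∀ k, nv (coeff k f) ≤ a * ((k : ℝ) + 1) ^ c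

theorem Bd.nonneg {a : ℝ} {c : ℕ} {f : ℚ⟦X⟧} (h : Bd a c f) : 0 ≤ a := by
  have := (nv_nonneg _).trans (h 0)
  simpa using this

theorem Bd.mono {a b : ℝ} {c d : ℕ} {f : ℚ⟦X⟧} (h : Bd a c f) (hab : a ≤ b) (hcd : c ≤ d) :
    Bd b d f := fun k => by
  refine (h k).trans ?_
  have h1 : (1 : ℝ) ≤ (k : ℝ) + 1 := by linarith [Nat.cast_nonneg (α := ℝ) k]
  exact mul_le_mul hab (pow_le_pow_right₀ h1 hcd) (by positivity) (h.nonneg.trans hab)

theorem Bd.zero {a : ℝ} {c : ℕ} (ha : 0 ≤ a) : Bd a c 0 := fun k => by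
  simp only [map_zero, nv_zero]; positivity

theorem Bd.add {a : ℝ} {c : ℕ} {f g : ℚ⟦X⟧} (hf : Bd a c f) (hg : Bd a c g) :
    Bd a c (f + g) := fun k => by
  rw [map_add]; exact nv_add_le (hf k) (hg k)

theorem Bd.neg {a : ℝ} {c : ℕ} {f : ℚ⟦X⟧} (hf : Bd a c f) : Bd a c (-f) := fun k => by
  rw [map_neg, nv_neg]; exact hf k

theorem Bd.sub {a : ℝ} {c : ℕ} {f g : ℚ⟦X⟧} (hf : Bd a c f) (hg : Bd a c g) :
    Bd a c (f - g) := by
  rw [sub_eq_add_neg]; exact hf.add hg.neg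

theorem Bd.sum {ι : Type*} {a : ℝ} {c : ℕ} (s : Finset ι) (f : ι → ℚ⟦X⟧) (ha : 0 ≤ a)
    (h : ∀ i ∈ s, Bd a c (f i)) : Bd a c (∑ i ∈ s, f i) := fun k => by
  rw [map_sum]
  exact nv_sum_le _ _ (by positivity) fun i hi => h i hi k

theorem Bd.mul {a b : ℝ} {c d : ℕ} {f g : ℚ⟦X⟧} (hf : Bd a c f) (hg : Bd b d g) :
    Bd (a * b) (c + d) (f * g) := fun k => by
  have ha := hf.nonneg
  have hb := hg.nonneg
  rw [coeff_mul]
  refine nv_sum_le _ _ (by positivity) fun p hp => ?_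
  rw [nv_mul]
  have h := Finset.HasAntidiagonal.mem_antidiagonal.1 hp
  have h1 : (p.1 : ℝ) ≤ k := by exact_mod_cast (by omega : p.1 ≤ k)
  have h2 : (p.2 : ℝ) ≤ k := by exact_mod_cast (by omega : p.2 ≤ k)
  calc nv (coeff p.1 f) * nv (coeff p.2 g)
      ≤ (a * ((k : ℝ) + 1) ^ c) * (b * ((k : ℝ) + 1) ^ d) := by
        refine mul_le_mul ((hf _).trans ?_) ((hg _).trans ?_) (nv_nonneg _) (by positivity)
        · gcongr
        · gcongr
    _ = a * b * ((k : ℝ) + 1) ^ (c + d) := by rw [pow_add]; ring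

theorem Bd.C {q : ℚ} {a : ℝ} (h : nv q ≤ a) : Bd a 0 (PowerSeries.C q) := fun k => by
  rw [coeff_C]
  have := (nv_nonneg q).trans h
  split_ifs
  · simpa using h
  · simpa using this

theorem Bd.Cmul {q : ℚ} {a b : ℝ} {c : ℕ} {f : ℚ⟦X⟧} (h : nv q ≤ a) (hf : Bd b c f) :
    Bd (a * b) c (PowerSeries.C q * f) := by
  have := (Bd.C h).mul hf
  simpa using this

theorem Bd.one : Bd 1 0 1 := by
  have := Bd.C (q := 1) (a := 1) (by simp)
  simpa using this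

theorem Bd.X : Bd 1 0 X := fun k => by
  rw [coeff_X]
  split_ifs <;> simp

theorem Bd.pow {a : ℝ} {f : ℚ⟦X⟧} (hf : Bd a 0 f) (n : ℕ) : Bd (a ^ n) 0 (f ^ n) := by
  induction n with
  | zero => simpa using Bd.one
  | succ n ih =>
    rw [pow_succ, pow_succ]
    simpa using ih.mul hf

theorem Bd.Xpow (n : ℕ) : Bd 1 0 (PowerSeries.X ^ n) := by
  simpa using Bd.X.pow n

/-- all coefficients are integers -/
theorem Bd.of_int {f : ℚ⟦X⟧} (h : ∀ k, ∃ z : ℤ, coeff k f = z) : Bd 1 0 f := fun k => by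
  obtain ⟨z, hz⟩ := h k
  rw [hz]
  simpa using nv_int z

/-- integration -/
theorem Bd.of_derivative {a : ℝ} {c : ℕ} {f : ℚ⟦X⟧}
    (h : Bd a c (PowerSeries.derivative ℚ f)) (h0 : nv (coeff 0 f) ≤ a) : Bd a (c + 1) f := fun k => by
  have ha := h.nonneg
  rcases k with _ | k
  · simpa using h0
  · have h1 := h k
    rw [coeff_derivative] at h1
    have h2 : coeff (k + 1) f = (coeff (k + 1) f * ((k : ℚ) + 1)) * (1 / ((k + 1 : ℕ) : ℚ)) := by
      have : ((k + 1 : ℕ) : ℚ) ≠ 0 := by positivity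
      push_cast at this ⊢
      field_simp
    rw [h2, nv_mul]
    have h3 := nv_nat_inv (k + 1) (by omega)
    calc _ ≤ (a * ((k : ℝ) + 1) ^ c) * ((k + 1 : ℕ) : ℝ) :=
          mul_le_mul h1 h3 (nv_nonneg _) (by positivity)
      _ ≤ (a * (((k + 1 : ℕ) : ℝ) + 1) ^ c) * (((k + 1 : ℕ) : ℝ) + 1) := by
          push_cast
          gcongr <;> linarith
      _ = _ := by rw [pow_succ]; ring

end Vale.Agent.P030.H486
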