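import Vale.Agent.P030.H486.Form

/-!
# P030, the 2-adic place: the adapted rows

Row types (position in the list `1, l, L, Li2, f6, f7, F, θF`):
`0 : e_1`, `1 : e_l + e_L`, `2 : e_L`, `3 : e_Li2` corrected by the truncations of
`log (1 - 1/S)`, `Li2 (1/S)`, `4 : e_6 + e_7` corrected by the truncations of `log (1 - 2S)`,
`Li2 (2S)`, `5 : e_7`, `6 : e_F`, `7 : e_θF`, all times the path basis `(S-1)^g (2S-1)^(n-g)`.
-/

namespace Vale.Agent.P030.H486

open Finset
open Vale.Agent.P030.T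

/-- the variable `S` -/
noncomputable abbrev PX : Polynomial ℚ := Polynomial.X

/-- polynomial part (degree `≤ n`) of `log (1 - 2S) p` -/
noncomputable def trA (n : ℕ) : Polynomial ℚ →ₗ[ℚ] Polynomial ℚ :=
  ∑ j ∈ range (n + 1), (Polynomial.lcoeff ℚ j).smulRight
    (-∑ k ∈ range (n - j), ((2 : ℚ) ^ (k + 1) / ((k : ℚ) + 1)) • PX ^ (j + k + 1))

/-- polynomial part (degree `≤ n`) of `- Li2 (2S) p` (up to a constant multiple of `p`) -/
noncomputable def trAK (n : ℕ) : Polynomial ℚ →ₗ[ℚ] Polynomial ℚ :=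
  ∑ j ∈ range (n + 1), (Polynomial.lcoeff ℚ j).smulRight
    (kc n • PX ^ j -
      ∑ k ∈ range (n - j), ((2 : ℚ) ^ (k + 1) / ((k : ℚ) + 1) ^ 2) • PX ^ (j + k + 1))

/-- polynomial part of `log (1 - 1/S) p` -/
noncomputable def trE (n : ℕ) : Polynomial ℚ →ₗ[ℚ] Polynomial ℚ :=
  ∑ j ∈ range (n + 1), (Polynomial.lcoeff ℚ j).smulRight
    (-∑ k ∈ range j, (1 / ((k : ℚ) + 1)) • PX ^ (j - (k + 1)))

/-- polynomial part of `Li2 (1/S) p` (up to a constant multiple of `p`) -/
noncomputable def trEK (n : ℕ) : Polynomial ℚ →ₗ[ℚ] Polynomial ℚ :=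
  ∑ j ∈ range (n + 1), (Polynomial.lcoeff ℚ j).smulRight
    (∑ k ∈ range j, (1 / ((k : ℚ) + 1) ^ 2) • PX ^ (j - (k + 1)) - kc n • PX ^ j)

section tails

variable (n : ℕ) (B δ Z : PowerSeries ℚ) (p : Polynomial ℚ)

theorem smul_C (q : ℚ) (f : PowerSeries ℚ) : q • f = PowerSeries.C q * f :=
  PowerSeries.smul_eq_C_mul f q

theorem hm_trA (h : 2 * B = Z * δ) :
    EL * hm n B δ p - hm n B δ (trA n p)
      = ∑ j ∈ range (n + 1), p.coeff j • (B ^ j * δ ^ (n - j) * rho Z (n - j)) := by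
  rw [hm_apply n B δ p, trA, LinearMap.sum_apply, map_sum, mul_sum, ← sum_sub_distrib]
  refine sum_congr rfl fun j hj => ?_
  have hj' : j ≤ n := by have := mem_range.1 hj; omega
  rw [LinearMap.smulRight_apply, Polynomial.lcoeff_apply, map_smul, mul_smul_comm, ← smul_sub]
  congr 1
  rw [map_neg, sub_neg_eq_add, map_sum, rho, mul_add, mul_sum, mul_comm EL]
  congr 1
  refine sum_congr rfl fun k hk => ?_
  have hk' := mem_range.1 hk
  rw [map_smul, hm_X_pow _ _ (by omega), smul_C]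
  have h1 : n - j = (n - (j + k + 1)) + (k + 1) := by omega
  have h2 : (PowerSeries.C ((2 : ℚ) ^ (k + 1) / ((k : ℚ) + 1)) : PowerSeries ℚ)
      = PowerSeries.C (1 / ((k : ℚ) + 1)) * 2 ^ (k + 1) := by
    have : (2 : ℚ) ^ (k + 1) / ((k : ℚ) + 1) = 1 / ((k : ℚ) + 1) * 2 ^ (k + 1) := by ring
    rw [this, map_mul, map_pow, C_two]
  have h3 : (2 * B) ^ (k + 1) = (Z * δ) ^ (k + 1) := by rw [h]
  rw [mul_pow, mul_pow] at h3
  rw [h2, h1, pow_add δ]
  have h4 : B ^ (j + k + 1) = B ^ j * B ^ (k + 1) := by ring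
  rw [h4]
  linear_combination (PowerSeries.C (1 / ((k : ℚ) + 1)) * B ^ j * δ ^ (n - (j + k + 1))) * h3

theorem hm_trAK (h : 2 * B = Z0 * δ) :
    kap * hm n B δ p - hm n B δ (trAK n p)
      = ∑ j ∈ range (n + 1), p.coeff j • (B ^ j * δ ^ (n - j) * rhoK n (n - j)) := by
  rw [hm_apply n B δ p, trAK, LinearMap.sum_apply, map_sum, mul_sum, ← sum_sub_distrib]
  refine sum_congr rfl fun j hj => ?_
  have hj' : j ≤ n := by have := mem_range.1 hj; omega
  rw [LinearMap.smulRight_apply, Polynomial.lcoeff_apply, map_smul, mul_smul_comm, ← smul_sub]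
  congr 1
  rw [map_sub, map_smul, hm_X_pow _ _ hj', map_sum, rhoK, smul_C]
  have key : ∑ k ∈ range (n - j), hm n B δ (((2 : ℚ) ^ (k + 1) / ((k : ℚ) + 1) ^ 2) • PX ^ (j + k + 1))
      = B ^ j * δ ^ (n - j) * ∑ k ∈ range (n - j),
        PowerSeries.C (1 / ((k : ℚ) + 1) ^ 2) * Z0 ^ (k + 1) := by
    rw [mul_sum]
    refine sum_congr rfl fun k hk => ?_
    have hk' := mem_range.1 hk
    rw [map_smul, hm_X_pow _ _ (by omega), smul_C]
    have h1 : n - j = (n - (j + k + 1)) + (k + 1) := by omega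
    have h2 : (PowerSeries.C ((2 : ℚ) ^ (k + 1) / ((k : ℚ) + 1) ^ 2) : PowerSeries ℚ)
        = PowerSeries.C (1 / ((k : ℚ) + 1) ^ 2) * 2 ^ (k + 1) := by
      have : (2 : ℚ) ^ (k + 1) / ((k : ℚ) + 1) ^ 2 = 1 / ((k : ℚ) + 1) ^ 2 * 2 ^ (k + 1) := by ring
      rw [this, map_mul, map_pow, C_two]
    have h3 : (2 * B) ^ (k + 1) = (Z0 * δ) ^ (k + 1) := by rw [h]
    rw [mul_pow, mul_pow] at h3
    rw [h2, h1, pow_add δ]
    have h4 : B ^ (j + k + 1) = B ^ j * B ^ (k + 1) := by ring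
    rw [h4]
    linear_combination (PowerSeries.C (1 / ((k : ℚ) + 1) ^ 2) * B ^ j * δ ^ (n - (j + k + 1))) * h3
  rw [key]
  ring

theorem hm_trE (h : B * Z = δ) :
    EL * hm n B δ p - hm n B δ (trE n p)
      = ∑ j ∈ range (n + 1), p.coeff j • (B ^ j * δ ^ (n - j) * rho Z j) := by
  rw [hm_apply n B δ p, trE, LinearMap.sum_apply, map_sum, mul_sum, ← sum_sub_distrib]
  refine sum_congr rfl fun j hj => ?_
  have hj' : j ≤ n := by have := mem_range.1 hj; omega
  rw [LinearMap.smulRight_apply, Polynomial.lcoeff_apply, map_smul, mul_smul_comm, ← smul_sub]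
  congr 1
  rw [map_neg, sub_neg_eq_add, map_sum, rho, mul_add, mul_sum, mul_comm EL]
  congr 1
  refine sum_congr rfl fun k hk => ?_
  have hk' := mem_range.1 hk
  rw [map_smul, hm_X_pow _ _ (by omega), smul_C]
  have h1 : n - (j - (k + 1)) = (n - j) + (k + 1) := by omega
  have h3 : (B * Z) ^ (k + 1) = δ ^ (k + 1) := by rw [h]
  have h4 : B ^ j = B ^ (j - (k + 1)) * B ^ (k + 1) := by rw [← pow_add]; congr 1; omega
  rw [h1, pow_add δ, h4, ← h3, mul_pow]
  ring

theorem hm_trEK (h : B * Z0 = δ) :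
    kap * hm n B δ p + hm n B δ (trEK n p)
      = ∑ j ∈ range (n + 1), p.coeff j • (B ^ j * δ ^ (n - j) * rhoK n j) := by
  rw [hm_apply n B δ p, trEK, LinearMap.sum_apply, map_sum, mul_sum, ← sum_add_distrib]
  refine sum_congr rfl fun j hj => ?_
  have hj' : j ≤ n := by have := mem_range.1 hj; omega
  rw [LinearMap.smulRight_apply, Polynomial.lcoeff_apply, map_smul, mul_smul_comm, ← smul_add]
  congr 1
  rw [map_sub, map_smul, hm_X_pow _ _ hj', map_sum, rhoK, smul_C]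
  have key : ∑ k ∈ range j, hm n B δ ((1 / ((k : ℚ) + 1) ^ 2) • PX ^ (j - (k + 1)))
      = B ^ j * δ ^ (n - j) * ∑ k ∈ range j,
        PowerSeries.C (1 / ((k : ℚ) + 1) ^ 2) * Z0 ^ (k + 1) := by
    rw [mul_sum]
    refine sum_congr rfl fun k hk => ?_
    have hk' := mem_range.1 hk
    rw [map_smul, hm_X_pow _ _ (by omega), smul_C]
    have h1 : n - (j - (k + 1)) = (n - j) + (k + 1) := by omega
    have h3 : (B * Z0) ^ (k + 1) = δ ^ (k + 1) := by rw [h]
    have h4 : B ^ j = B ^ (j - (k + 1)) * B ^ (k + 1) := by rw [← pow_add]; congr 1; omega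
    rw [h1, pow_add δ, h4, ← h3, mul_pow]
    ring
  rw [key]
  ring

end tails

/-! ### the rows -/

/-- the adapted sections of a polynomial `h` in `S` -/
noncomputable def sec (n : ℕ) (h : Polynomial ℚ) : Fin 8 → Fin 8 → Polynomial ℚ :=
  ![![h, 0, 0, 0, 0, 0, 0, 0],
    ![0, h, h, 0, 0, 0, 0, 0],
    ![0, 0, h, 0, 0, 0, 0, 0],
    ![trEK n h, 0, -trE n h, h, 0, 0, 0, 0],
    ![trAK n h, -trA n h, -trA n h, 0, h, h, 0, 0],
    ![0, 0, 0, 0, 0, h, 0, 0],
    ![0, 0, 0, 0, 0, 0, h, 0],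
    ![0, 0, 0, 0, 0, 0, 0, h]]

/-- the value of a section in a group (part without `x`) -/
noncomputable def val (n : ℕ) (P : Fin 8 → Polynomial ℚ) (gr : Gp) : PowerSeries ℚ :=
  ∑ j, hm n (cB gr.cusp) (cD gr.cusp) (P j) * tup0 gr j

/-- the coefficient of `x` in the value of a section -/
noncomputable def val1 (n : ℕ) (P : Fin 8 → Polynomial ℚ) (gr : Gp) : PowerSeries ℚ :=
  ∑ j, hm n (cB gr.cusp) (cD gr.cusp) (P j) * tup1 gr j

/-- the row vector of a section (coefficients with respect to the rows `μ_i e_j`) -/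
noncomputable def rowv (n : ℕ) (P : Fin 8 → Polynomial ℚ) (c : Fin (n + 1) × Fin 8) : ℚ :=
  (psi n (P c.2)).coeff c.1

theorem sum_ent (n : ℕ) (P : Fin 8 → Polynomial ℚ) (gr : Gp) (k : ℕ)
    (tup : Fin 8 → PowerSeries ℚ) :
    ∑ r : Fin (n + 1) × Fin 8, rowv n P r
        * PowerSeries.coeff k (mon (n + 1) gr.cusp r.1 * tup r.2)
      = PowerSeries.coeff k (∑ j, hm n (cB gr.cusp) (cD gr.cusp) (P j) * tup j) := by
  rw [Fintype.sum_prod_type_right, map_sum]
  refine sum_congr rfl fun j _ => ?_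
  rw [← sum_psi_mon, sum_mul, map_sum, Finset.sum_range]
  refine sum_congr rfl fun i _ => ?_
  simp [rowv]

theorem rowv_ent0 (n : ℕ) (P : Fin 8 → Polynomial ℚ) (gr : Gp) (k : ℕ) :
    ∑ c : Fin (n + 1) × Fin 8, rowv n P c * ent0 (n + 1) gr k c.1 c.2
      = PowerSeries.coeff k (val n P gr) :=
  sum_ent n P gr k (tup0 gr)

theorem rowv_ent1 (n : ℕ) (P : Fin 8 → Polynomial ℚ) (gr : Gp) (k : ℕ) :
    ∑ c : Fin (n + 1) × Fin 8, rowv n P c * ent1 (n + 1) gr k c.1 c.2
      = PowerSeries.coeff k (val1 n P gr) :=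
  sum_ent n P gr k (tup1 gr)

/-! ### the determinant of the transition matrix -/

/-- triangular order of the row types: `7, 6, 3, 4, 5, 1, 2, 0` -/
def brk : Fin 8 → Fin 8 := ![7, 5, 6, 2, 3, 4, 1, 0]

theorem brk_inj : Function.Injective brk := by decide

theorem sec_eq_zero (n : ℕ) (h : Polynomial ℚ) (ty j : Fin 8) (hj : brk j < brk ty) :
    sec n h ty j = 0 := by
  revert hj
  fin_cases ty <;> fin_cases j <;> simp [sec, brk]

theorem sec_self (n : ℕ) (h : Polynomial ℚ) (ty : Fin 8) : sec n h ty ty = h := by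
  fin_cases ty <;> simp [sec]

/-- a matrix which is triangular in the types -/
theorem det_types {R : Type*} [CommRing R] {m : ℕ}
    (T : Matrix (Fin m × Fin 8) (Fin m × Fin 8) R)
    (hT : ∀ r c, brk c.2 < brk r.2 → T r c = 0) :
    T.det = ∏ ty : Fin 8, (T.submatrix (fun i : Fin m => (i, ty)) fun i => (i, ty)).det := by
  classical
  have hb : T.BlockTriangular fun r => brk r.2 := fun r c h => hT r c h
  let q : Fin 8 ≃ Fin 8 := Equiv.ofBijective brk (Finite.injective_iff_bijective.1 brk_inj)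
  rw [hb.det_fintype, ← q.prod_comp]
  refine prod_congr rfl fun ty _ => ?_
  let e : Fin m ≃ {r : Fin m × Fin 8 // brk r.2 = q ty} :=
    { toFun := fun i => ⟨(i, ty), rfl⟩
      invFun := fun r => r.1.1
      left_inv := fun i => rfl
      right_inv := fun r => by
        obtain ⟨⟨i, j⟩, h⟩ := r
        have : j = ty := brk_inj h
        subst this
        rfl }
  exact (Matrix.det_submatrix_equiv_self e (T.toSquareBlock (fun r => brk r.2) (q ty))).symm

/-- the block of a type for the basis `S^i` has determinant `± 1` -/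
theorem det_block_S (n : ℕ) :
    (Matrix.of fun i i' : Fin (n + 1) => (psi n ((Polynomial.X : Polynomial ℚ) ^ (i : ℕ))).coeff i').det ^ 2
      = 1 := by
  have h1 : ∀ i : Fin (n + 1), psi n ((Polynomial.X : Polynomial ℚ) ^ (i : ℕ))
      = (1 - Polynomial.X) ^ (n - (i : ℕ)) := fun i => by
    rw [psi, hm_X_pow _ _ (by omega)]; simp
  set M : Matrix (Fin (n + 1)) (Fin (n + 1)) ℚ := Matrix.of fun i i' : Fin (n + 1) =>
    (psi n ((Polynomial.X : Polynomial ℚ) ^ (i : ℕ))).coeff i' with hM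
  have h2 : (M.submatrix Fin.revPerm id).det ^ 2 = M.det ^ 2 := by
    rw [Matrix.det_permute, mul_pow]
    have : (((Equiv.Perm.sign (Fin.revPerm (n := n + 1)) : ℤˣ) : ℤ) : ℚ) ^ 2 = 1 := by
      rcases Int.units_eq_one_or (Equiv.Perm.sign (Fin.revPerm (n := n + 1))) with h | h <;>
        rw [h] <;> simp
    rw [this, one_mul]
  rw [← h2]
  have h3 : (M.submatrix Fin.revPerm id).BlockTriangular OrderDual.toDual := by
    intro i j hij
    have hij' : i < j := hij
    rw [Matrix.submatrix_apply, hM, Matrix.of_apply, h1]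
    refine Polynomial.coeff_eq_zero_of_natDegree_lt ((natDegree_one_sub_X_pow _).trans_lt ?_)
    simp only [id, Fin.revPerm_apply, Fin.val_rev]
    have : (i : ℕ) < j := hij'
    omega
  rw [Matrix.det_of_isLowerTriangular _ h3, ← Finset.prod_pow]
  refine prod_eq_one fun i _ => ?_
  rw [Matrix.submatrix_apply, hM, Matrix.of_apply, h1]
  have : n - ((Fin.revPerm i : Fin (n + 1)) : ℕ) = i := by
    simp only [Fin.revPerm_apply, Fin.val_rev]; omega
  rw [this, id]
  have h4 : ((1 - Polynomial.X : Polynomial ℚ) ^ (i : ℕ)).coeff i = (-1) ^ (i : ℕ) := by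
    have h5 : (1 - Polynomial.X : Polynomial ℚ) = -(Polynomial.X - Polynomial.C 1) := by
      rw [Polynomial.C_1]; ring
    rw [h5, neg_pow, ← Polynomial.C_1, ← Polynomial.C_neg, ← Polynomial.C_pow, Polynomial.coeff_C_mul]
    have h6 := (Polynomial.monic_X_sub_C (1 : ℚ)).pow (i : ℕ)
    have h7 : ((Polynomial.X - Polynomial.C (1 : ℚ)) ^ (i : ℕ)).natDegree = (i : ℕ) := by
      rw [Polynomial.natDegree_pow, Polynomial.natDegree_X_sub_C, mul_one]
    have h8 := h6.coeff_natDegree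
    rw [h7] at h8
    rw [h8, mul_one]
  rw [h4, ← pow_mul]
  exact Even.neg_one_pow ⟨(i : ℕ), by ring⟩

end Vale.Agent.P030.H486
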