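import Vale.Agent.P030.H486.Rows

/-!
# P030, the 2-adic place: the entries of the adapted polylogarithmic rows

`entry_bound`: the row types `0, .., 5` with `h = S^i`, all 17 groups.
-/

namespace Vale.Agent.P030.H486

open Finset PowerSeries
open Vale.Agent.P030.T

/-- the kinds of entries -/
inductive Kd
  | no | one | up | down | low | top
  deriving DecidableEq

/-- the size of an entry of row index `i` and order `k` -/
noncomputable def bnd (n i k : ℕ) : Kd → ℝ
  | .no => 0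
  | .one => 1
  | .up => 2 ^ i
  | .down => (1 / 2) ^ (n - i)
  | .low => if k < i then 0 else 1
  | .top => if k + i < n then 0 else 2 ^ i

/-- the table of the kinds -/
def tab : Fin 8 → Gp → Kd
  | 0, .z1 => .one
  | 0, .w1 => .up
  | 1, .z1 => .one
  | 1, .zl => .one
  | 1, .w1 => .up
  | 1, .vb => .low
  | 1, .x1 => .top
  | 2, .z1 => .one
  | 2, .w1 => .up
  | 2, .wl => .up
  | 2, .vb => .low
  | 2, .x1 => .top
  | 3, .z1 => .one
  | 3, .zab => .one
  | 3, .w1 => .one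
  | 3, .wl => .one
  | 3, .wy => .up
  | 3, .wab => .up
  | 3, .v2 => .low
  | 3, .vb => .one
  | 4, .z1 => .down
  | 4, .zl => .down
  | 4, .w1 => .up
  | 4, .wy => .up
  | 4, .wf7 => .up
  | 4, .x2 => .top
  | 4, .x1 => .up
  | 5, .z1 => .one
  | 5, .zl => .one
  | 5, .w1 => .up
  | 5, .wl => .up
  | 5, .wf7 => .up
  | 5, .v2 => .low
  | 5, .vl => .low
  | 5, .vb => .low
  | 5, .x2 => .top
  | 5, .xl => .top
  | 5, .x1 => .top
  | _, _ => .no

section fin

variable {n i k : ℕ} {a : ℝ} {c : ℕ} {f : PowerSeries ℚ}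

/-- the constant -/
noncomputable def cst (n k : ℕ) : ℝ := 2 * ((n : ℝ) + 1) ^ 2 * ((k : ℝ) + 1) ^ 3

theorem cst_nonneg : 0 ≤ cst n k := by unfold cst; positivity

theorem fin_aux {b : ℝ} (hb : 0 ≤ b) (h : Bd (b * a) c f) (ha : a ≤ 2 * ((n : ℝ) + 1) ^ 2) (hc : c ≤ 3) : nv (coeff k f) ≤ cst n k * b := by
  refine (h k).trans ?_
  have h1 : (1 : ℝ) ≤ (k : ℝ) + 1 := by linarith [Nat.cast_nonneg (α := ℝ) k]
  have h2 : ((k : ℝ) + 1) ^ c ≤ ((k : ℝ) + 1) ^ 3 := pow_le_pow_right₀ h1 hc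
  unfold cst
  calc b * a * ((k : ℝ) + 1) ^ c ≤ b * (2 * ((n : ℝ) + 1) ^ 2) * ((k : ℝ) + 1) ^ 3 := by gcongr
    _ = _ := by ring

theorem fin_one (h : Bd a c f) (ha : a ≤ 2 * ((n : ℝ) + 1) ^ 2) (hc : c ≤ 3) :
    nv (coeff k f) ≤ cst n k * bnd n i k .one :=
  fin_aux (b := 1) zero_le_one (by rwa [one_mul]) ha hc

theorem fin_up (h : Bd (2 ^ i * a) c f) (ha : a ≤ 2 * ((n : ℝ) + 1) ^ 2)
    (hc : c ≤ 3) : nv (coeff k f) ≤ cst n k * bnd n i k .up :=
  fin_aux (b := 2 ^ i) (by positivity) h ha hc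

theorem fin_down (h : Bd ((1 / 2) ^ (n - i) * a) c f) (ha : a ≤ 2 * ((n : ℝ) + 1) ^ 2)
    (hc : c ≤ 3) : nv (coeff k f) ≤ cst n k * bnd n i k .down :=
  fin_aux (b := (1 / 2) ^ (n - i)) (by positivity) h ha hc

theorem fin_low (hd : X ^ i ∣ f) (h : Bd a c f) (ha : a ≤ 2 * ((n : ℝ) + 1) ^ 2)
    (hc : c ≤ 3) : nv (coeff k f) ≤ cst n k * bnd n i k .low := by
  show nv (coeff k f) ≤ cst n k * (if k < i then 0 else 1)
  split_ifs with hk
  · rw [X_pow_dvd_iff.1 hd k hk, nv_zero, mul_zero]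
  · exact fin_aux (b := 1) zero_le_one (by rwa [one_mul]) ha hc

theorem fin_top (hd : X ^ (n - i) ∣ f) (h : Bd (2 ^ i * a) c f) (ha : a ≤ 2 * ((n : ℝ) + 1) ^ 2)
    (hc : c ≤ 3) : nv (coeff k f) ≤ cst n k * bnd n i k .top := by
  show nv (coeff k f) ≤ cst n k * (if k + i < n then 0 else 2 ^ i)
  split_ifs with hk
  · rw [X_pow_dvd_iff.1 hd k (by omega), nv_zero, mul_zero]
  · exact fin_aux (b := 2 ^ i) (by positivity) h ha hc

theorem fin_no (h : f = 0) : nv (coeff k f) ≤ cst n k * bnd n i k .no := by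
  rw [h, map_zero, nv_zero]; exact mul_nonneg cst_nonneg le_rfl

theorem fin_no' (hd : X ^ (n + 1) ∣ f) (hk : k ≤ n) :
    nv (coeff k f) ≤ cst n k * bnd n i k .no := by
  rw [X_pow_dvd_iff.1 hd k (by omega), nv_zero]; exact mul_nonneg cst_nonneg le_rfl

end fin

/-! ### values of `S^i` at the cusps -/

section vals

variable {n i : ℕ}

/-- value of `S^i` at a cusp -/
noncomputable def HS (n : ℕ) (c : Fin 4) (i : ℕ) : PowerSeries ℚ := cB c ^ i * cD c ^ (n - i)

theorem hm_S (hi : i ≤ n) (c : Fin 4) : hm n (cB c) (cD c) (Polynomial.X ^ i) = HS n c i :=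
  hm_X_pow n i hi _ _

theorem bd_cB1 : Bd 2 0 (cB 1) := by
  have h : cB 1 = PowerSeries.C (1 / 2) * (1 - X) := rfl
  rw [h]
  have := Bd.Cmul (q := 1 / 2) (a := 2) nv_half.le (Bd.one.sub Bd.X)
  simpa using this

theorem bd_cB3 : Bd 2 0 (cB 3) := by
  have h : cB 3 = -cB 1 := rfl
  rw [h]
  exact bd_cB1.neg

theorem bd_cB0 : Bd 1 0 (cB 0) := bd_geo

theorem bd_cB2 : Bd 1 0 (cB 2) := by
  have h : cB 2 = -(X * geo) := rfl
  rw [h]
  simpa using (Bd.X.mul bd_geo).neg

theorem bd_cD (c : Fin 4) : Bd 1 0 (cD c) := by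
  fin_cases c
  · exact Bd.one
  · exact Bd.one
  · exact Bd.one
  · exact Bd.X

theorem bd_HS0 : Bd 1 0 (HS n 0 i) := by
  simpa [HS] using (bd_cB0.pow i).mul ((bd_cD 0).pow (n - i))

theorem bd_HS1 : Bd (2 ^ i) 0 (HS n 1 i) := by
  simpa [HS] using (bd_cB1.pow i).mul ((bd_cD 1).pow (n - i))

theorem bd_HS2 : Bd 1 0 (HS n 2 i) := by
  simpa [HS] using (bd_cB2.pow i).mul ((bd_cD 2).pow (n - i))

theorem bd_HS3 : Bd (2 ^ i) 0 (HS n 3 i) := by
  simpa [HS] using (bd_cB3.pow i).mul ((bd_cD 3).pow (n - i))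

theorem dvd_HS2 : X ^ i ∣ HS n 2 i := by
  have h : cB 2 = X * (-geo) := by show -(X * geo) = _; ring
  rw [HS, h, mul_pow, mul_assoc]
  exact Dvd.intro _ rfl

theorem dvd_HS3 : X ^ (n - i) ∣ HS n 3 i := Dvd.intro_left _ rfl

theorem two_cB0 : 2 * cB 0 = Z0 * cD 0 := by
  show 2 * geo = Z0 * 1
  rw [Z0, C_two, mul_one]

theorem two_cB2 : 2 * cB 2 = Z1 * cD 2 := by
  show 2 * -(X * geo) = Z1 * 1
  rw [Z1, C_two, mul_one]

theorem cB1_Z0 : cB 1 * Z0 = cD 1 := by
  show PowerSeries.C (1 / 2) * (1 - X) * Z0 = 1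
  rw [Z0, C_two]
  linear_combination (PowerSeries.C (1 / 2) * 2) * geo_mul + half_two

theorem cB3_Z1 : cB 3 * Z1 = cD 3 := by
  show -(PowerSeries.C (1 / 2) * (1 - X)) * Z1 = X
  rw [Z1, C_two]
  linear_combination (PowerSeries.C (1 / 2) * 2 * X) * geo_mul + X * half_two

/-- sums over the coefficients of `S^i` -/
theorem sum_X_pow (hi : i ≤ n) (F : ℕ → PowerSeries ℚ) :
    ∑ j ∈ range (n + 1), ((Polynomial.X : Polynomial ℚ) ^ i).coeff j • F j = F i := by
  rw [sum_eq_single i]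
  · simp
  · intro j _ hj
    simp [Polynomial.coeff_X_pow, hj]
  · intro h
    exact absurd (mem_range.2 (by omega)) h

theorem tailA_S (hi : i ≤ n) {c : Fin 4} {Z : PowerSeries ℚ} (h : 2 * cB c = Z * cD c) :
    EL * HS n c i - hm n (cB c) (cD c) (trA n (Polynomial.X ^ i)) = HS n c i * rho Z (n - i) := by
  rw [← hm_S hi, hm_trA _ _ _ _ _ h, hm_S hi, HS]
  exact sum_X_pow hi fun j => cB c ^ j * cD c ^ (n - j) * rho Z (n - j)

theorem tailAK_S (hi : i ≤ n) {c : Fin 4} (h : 2 * cB c = Z0 * cD c) :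
    kap * HS n c i - hm n (cB c) (cD c) (trAK n (Polynomial.X ^ i))
      = HS n c i * rhoK n (n - i) := by
  rw [← hm_S hi, hm_trAK _ _ _ _ h, hm_S hi, HS]
  exact sum_X_pow hi fun j => cB c ^ j * cD c ^ (n - j) * rhoK n (n - j)

theorem tailE_S (hi : i ≤ n) {c : Fin 4} {Z : PowerSeries ℚ} (h : cB c * Z = cD c) :
    EL * HS n c i - hm n (cB c) (cD c) (trE n (Polynomial.X ^ i)) = HS n c i * rho Z i := by
  rw [← hm_S hi, hm_trE _ _ _ _ _ h, hm_S hi, HS]
  exact sum_X_pow hi fun j => cB c ^ j * cD c ^ (n - j) * rho Z j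

theorem tailEK_S (hi : i ≤ n) {c : Fin 4} (h : cB c * Z0 = cD c) :
    kap * HS n c i + hm n (cB c) (cD c) (trEK n (Polynomial.X ^ i)) = HS n c i * rhoK n i := by
  rw [← hm_S hi, hm_trEK _ _ _ _ h, hm_S hi, HS]
  exact sum_X_pow hi fun j => cB c ^ j * cD c ^ (n - j) * rhoK n j

/-! ### crude bounds for the truncations -/

theorem trA_S (hi : i ≤ n) : trA n (Polynomial.X ^ i) = -∑ k ∈ range (n - i),
    ((2 : ℚ) ^ (k + 1) / ((k : ℚ) + 1)) • (Polynomial.X : Polynomial ℚ) ^ (i + k + 1) := by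
  rw [trA, LinearMap.sum_apply, sum_eq_single i]
  · simp
  · intro j _ hj
    simp [Polynomial.coeff_X_pow, hj]
  · intro h
    exact absurd (mem_range.2 (by omega)) h

theorem trAK_S (hi : i ≤ n) : trAK n (Polynomial.X ^ i) = kc n • (Polynomial.X : Polynomial ℚ) ^ i
    - ∑ k ∈ range (n - i),
    ((2 : ℚ) ^ (k + 1) / ((k : ℚ) + 1) ^ 2) • (Polynomial.X : Polynomial ℚ) ^ (i + k + 1) := by
  rw [trAK, LinearMap.sum_apply, sum_eq_single i]
  · simp
  · intro j _ hj
    simp [Polynomial.coeff_X_pow, hj]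
  · intro h
    exact absurd (mem_range.2 (by omega)) h

theorem trE_S (hi : i ≤ n) : trE n (Polynomial.X ^ i) = -∑ k ∈ range i,
    (1 / ((k : ℚ) + 1)) • (Polynomial.X : Polynomial ℚ) ^ (i - (k + 1)) := by
  rw [trE, LinearMap.sum_apply, sum_eq_single i]
  · simp
  · intro j _ hj
    simp [Polynomial.coeff_X_pow, hj]
  · intro h
    exact absurd (mem_range.2 (by omega)) h

theorem trEK_S (hi : i ≤ n) : trEK n (Polynomial.X ^ i) = ∑ k ∈ range i,
    (1 / ((k : ℚ) + 1) ^ 2) • (Polynomial.X : Polynomial ℚ) ^ (i - (k + 1))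
      - kc n • (Polynomial.X : Polynomial ℚ) ^ i := by
  rw [trEK, LinearMap.sum_apply, sum_eq_single i]
  · simp
  · intro j _ hj
    simp [Polynomial.coeff_X_pow, hj]
  · intro h
    exact absurd (mem_range.2 (by omega)) h

theorem nv_inv_succ (k : ℕ) : nv (1 / ((k : ℚ) + 1)) ≤ (k : ℝ) + 1 := by
  have h := nv_nat_inv (k + 1) (by omega)
  push_cast at h
  exact h

/-- `b`: the norm of `S` at the cusp -/
theorem bd_trA (hi : i ≤ n) {c : Fin 4} (h : Bd 2 0 (cB c)) :
    Bd (2 ^ i * ((n : ℝ) + 1)) 0 (hm n (cB c) (cD c) (trA n (Polynomial.X ^ i))) := by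
  rw [trA_S hi, map_neg, map_sum]
  refine (Bd.sum _ _ (by positivity) fun k hk => ?_).neg
  have hk' := mem_range.1 hk
  rw [map_smul, hm_X_pow _ _ (by omega), smul_C]
  have h1 := (h.pow (i + k + 1)).mul ((bd_cD c).pow (n - (i + k + 1)))
  rw [one_pow, mul_one, add_zero] at h1
  have h2 : nv ((2 : ℚ) ^ (k + 1) / ((k : ℚ) + 1)) ≤ (1 / 2) ^ (k + 1) * ((k : ℝ) + 1) := by
    rw [div_eq_mul_one_div, nv_mul, nv_two_pow]
    exact mul_le_mul_of_nonneg_left (nv_inv_succ k) (by positivity)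
  refine (Bd.Cmul h2 h1).mono ?_ le_rfl
  have h3 : (k : ℝ) ≤ n := by exact_mod_cast (by omega : k ≤ n)
  calc (1 / 2 : ℝ) ^ (k + 1) * ((k : ℝ) + 1) * 2 ^ (i + k + 1)
      = ((1 / 2) * 2) ^ (k + 1) * 2 ^ i * ((k : ℝ) + 1) := by rw [mul_pow]; ring
    _ = 2 ^ i * ((k : ℝ) + 1) := by norm_num
    _ ≤ _ := by gcongr

theorem bd_trAK (hi : i ≤ n) {c : Fin 4} (h : Bd 2 0 (cB c)) :
    Bd (2 ^ i * ((n : ℝ) + 1) ^ 2) 0 (hm n (cB c) (cD c) (trAK n (Polynomial.X ^ i))) := by
  rw [trAK_S hi, map_sub, map_sum]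
  refine Bd.sub ?_ (Bd.sum _ _ (by positivity) fun k hk => ?_)
  · rw [map_smul, hm_X_pow _ _ hi, smul_C]
    have h1 := (h.pow i).mul ((bd_cD c).pow (n - i))
    rw [one_pow, mul_one, add_zero] at h1
    refine (Bd.Cmul (nv_kc n) h1).mono (le_of_eq (by ring)) le_rfl
  · have hk' := mem_range.1 hk
    rw [map_smul, hm_X_pow _ _ (by omega), smul_C]
    have h1 := (h.pow (i + k + 1)).mul ((bd_cD c).pow (n - (i + k + 1)))
    rw [one_pow, mul_one, add_zero] at h1
    refine (Bd.Cmul (nv_kterm k) h1).mono ?_ le_rfl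
    have h3 : (k : ℝ) ≤ n := by exact_mod_cast (by omega : k ≤ n)
    calc (1 / 2 : ℝ) ^ (k + 1) * ((k : ℝ) + 1) ^ 2 * 2 ^ (i + k + 1)
        = ((1 / 2) * 2) ^ (k + 1) * 2 ^ i * ((k : ℝ) + 1) ^ 2 := by rw [mul_pow]; ring
      _ = 2 ^ i * ((k : ℝ) + 1) ^ 2 := by norm_num
      _ ≤ _ := by gcongr

theorem bd_trE (hi : i ≤ n) {c : Fin 4} (h : Bd 1 0 (cB c)) :
    Bd ((n : ℝ) + 1) 0 (hm n (cB c) (cD c) (trE n (Polynomial.X ^ i))) := by
  rw [trE_S hi, map_neg, map_sum]
  refine (Bd.sum _ _ (by positivity) fun k hk => ?_).neg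
  have hk' := mem_range.1 hk
  rw [map_smul, hm_X_pow _ _ (by omega), smul_C]
  have h1 := (h.pow (i - (k + 1))).mul ((bd_cD c).pow (n - (i - (k + 1))))
  rw [one_pow, one_pow, mul_one, add_zero] at h1
  refine (Bd.Cmul (nv_inv_succ k) h1).mono ?_ le_rfl
  have h3 : (k : ℝ) ≤ n := by exact_mod_cast (by omega : k ≤ n)
  linarith

theorem bd_trEK (hi : i ≤ n) {c : Fin 4} (h : Bd 1 0 (cB c)) :
    Bd (((n : ℝ) + 1) ^ 2) 0 (hm n (cB c) (cD c) (trEK n (Polynomial.X ^ i))) := by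
  rw [trEK_S hi, map_sub, map_sum]
  refine Bd.sub (Bd.sum _ _ (by positivity) fun k hk => ?_) ?_
  · have hk' := mem_range.1 hk
    rw [map_smul, hm_X_pow _ _ (by omega), smul_C]
    have h1 := (h.pow (i - (k + 1))).mul ((bd_cD c).pow (n - (i - (k + 1))))
    rw [one_pow, one_pow, mul_one, add_zero] at h1
    have h2 : nv (1 / ((k : ℚ) + 1) ^ 2) ≤ ((k : ℝ) + 1) ^ 2 := by
      rw [← one_div_pow, nv_pow]
      exact pow_le_pow_left₀ (nv_nonneg _) (nv_inv_succ k) 2
    refine (Bd.Cmul h2 h1).mono ?_ le_rfl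
    have h3 : (k : ℝ) ≤ n := by exact_mod_cast (by omega : k ≤ n)
    rw [mul_one]
    gcongr
  · rw [map_smul, hm_X_pow _ _ hi, smul_C]
    have h1 := (h.pow i).mul ((bd_cD c).pow (n - i))
    rw [one_pow, one_pow, mul_one, add_zero] at h1
    exact (Bd.Cmul (nv_kc n) h1).mono (le_of_eq (by ring)) le_rfl

end vals

/-! ### the table -/

section table

variable {n i k : ℕ}

theorem one_le_sq (n : ℕ) : (1 : ℝ) ≤ ((n : ℝ) + 1) ^ 2 := by
  have : (0 : ℝ) ≤ n := Nat.cast_nonneg n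
  nlinarith

theorem bd_half : Bd 2 0 (PowerSeries.C (1 / 2)) := Bd.C nv_half.le

theorem bd_lgm2 : Bd 2 2 (sc (1 / 2) (lgm ^ 2)) := by
  have := Bd.Cmul (q := 1 / 2) (a := 2) nv_half.le (bd_lgm.mul bd_lgm)
  rw [sc, pow_two]
  simpa using this

theorem bd_hlgm : Bd 2 1 (sc (1 / 2) lgm) := by
  have := Bd.Cmul (q := 1 / 2) (a := 2) nv_half.le bd_lgm
  rw [sc]
  simpa using this

theorem bd_li2 : Bd 1 2 li2 := fun k => by
  rcases k with _ | k
  · simp [li2]
  · have h : coeff (k + 1) li2 = (1 / ((k : ℚ) + 1)) ^ 2 := by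
      simp [li2, one_div]
    rw [h, nv_pow, one_mul]
    have h2 := nv_inv_succ k
    refine (pow_le_pow_left₀ (nv_nonneg _) h2 2).trans ?_
    push_cast
    gcongr
    linarith

theorem nv_four_thirds : nv (4 / 3) ≤ 1 := by
  have h3 : nv 3 = 1 := by
    have h : nv 3 = ‖((3 : ℕ) : ℚ_[2])‖ := by simp [nv]
    rw [h]
    exact Padic.norm_natCast_eq_one_iff.2 (by decide)
  have h4 : nv (4 : ℚ) ≤ 1 := by have := nv_nat 4; simpa using this
  rw [nv_div, h3, div_one]
  exact h4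

theorem bd_four_thirds : Bd 1 0 (PowerSeries.C (4 / 3)) := Bd.C nv_four_thirds

/-- type `0`: the row `1` -/
theorem entry0 (hi : i ≤ n) (gr : Gp) :
    nv (coeff k (val n (sec n (Polynomial.X ^ i) 0) gr)) ≤ cst n k * bnd n i k (tab 0 gr) := by
  have h0 := one_le_sq n
  cases gr
  case z1 =>
    have h : val n (sec n (Polynomial.X ^ i) 0) .z1 = HS n 0 i := by
      simp [val, Fin.sum_univ_eight, sec, tup0, Gp.cusp, hm_S hi]
    rw [h]; exact fin_one bd_HS0 (by linarith) (by norm_num)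
  case w1 =>
    have h : val n (sec n (Polynomial.X ^ i) 0) .w1 = HS n 1 i := by
      simp [val, Fin.sum_univ_eight, sec, tup0, Gp.cusp, hm_S hi]
    rw [h]; exact fin_up (a := 1) (by simpa using bd_HS1) (by linarith) (by norm_num)
  all_goals exact fin_no (by simp [val, Fin.sum_univ_eight, sec, tup0, Gp.cusp])

/-- type `1`: the row `l + L` -/
theorem entry1 (hi : i ≤ n) (gr : Gp) :
    nv (coeff k (val n (sec n (Polynomial.X ^ i) 1) gr)) ≤ cst n k * bnd n i k (tab 1 gr) := by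
  have h0 := one_le_sq n
  cases gr
  case z1 =>
    have h : val n (sec n (Polynomial.X ^ i) 1) .z1 = HS n 0 i * lgm := by
      simp [val, Fin.sum_univ_eight, sec, tup0, Gp.cusp, hm_S hi]
    rw [h]; exact fin_one (bd_HS0.mul bd_lgm) (by linarith) (by norm_num)
  case zl =>
    have h : val n (sec n (Polynomial.X ^ i) 1) .zl = HS n 0 i := by
      simp [val, Fin.sum_univ_eight, sec, tup0, Gp.cusp, hm_S hi]
    rw [h]; exact fin_one bd_HS0 (by linarith) (by norm_num)
  case w1 =>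
    have h : val n (sec n (Polynomial.X ^ i) 1) .w1 = -(HS n 1 i * lgm) := by
      simp [val, Fin.sum_univ_eight, sec, tup0, Gp.cusp, hm_S hi]
    rw [h]; exact fin_up (bd_HS1.mul bd_lgm).neg (by linarith) (by norm_num)
  case wl => exact fin_no (by simp [val, Fin.sum_univ_eight, sec, tup0, Gp.cusp])
  case vb =>
    have h : val n (sec n (Polynomial.X ^ i) 1) .vb = HS n 2 i := by
      simp [val, Fin.sum_univ_eight, sec, tup0, Gp.cusp, hm_S hi]
    rw [h]; exact fin_low dvd_HS2 bd_HS2 (by linarith) (by norm_num)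
  case x1 =>
    have h : val n (sec n (Polynomial.X ^ i) 1) .x1 = -HS n 3 i := by
      simp [val, Fin.sum_univ_eight, sec, tup0, Gp.cusp, hm_S hi]
    rw [h]
    exact fin_top ((dvd_neg).2 dvd_HS3) (a := 1) (by simpa using bd_HS3.neg) (by linarith)
      (by norm_num)
  all_goals exact fin_no (by simp [val, Fin.sum_univ_eight, sec, tup0, Gp.cusp])

/-- type `2`: the row `L` -/
theorem entry2 (hi : i ≤ n) (gr : Gp) :
    nv (coeff k (val n (sec n (Polynomial.X ^ i) 2) gr)) ≤ cst n k * bnd n i k (tab 2 gr) := by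
  have h0 := one_le_sq n
  cases gr
  case z1 =>
    have h : val n (sec n (Polynomial.X ^ i) 2) .z1 = HS n 0 i * lgm := by
      simp [val, Fin.sum_univ_eight, sec, tup0, Gp.cusp, hm_S hi]
    rw [h]; exact fin_one (bd_HS0.mul bd_lgm) (by linarith) (by norm_num)
  case w1 =>
    have h : val n (sec n (Polynomial.X ^ i) 2) .w1 = -(HS n 1 i * lgm) := by
      simp [val, Fin.sum_univ_eight, sec, tup0, Gp.cusp, hm_S hi]
    rw [h]; exact fin_up (bd_HS1.mul bd_lgm).neg (by linarith) (by norm_num)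
  case wl =>
    have h : val n (sec n (Polynomial.X ^ i) 2) .wl = -HS n 1 i := by
      simp [val, Fin.sum_univ_eight, sec, tup0, Gp.cusp, hm_S hi]
    rw [h]; exact fin_up (a := 1) (by simpa using bd_HS1.neg) (by linarith) (by norm_num)
  case vb =>
    have h : val n (sec n (Polynomial.X ^ i) 2) .vb = HS n 2 i := by
      simp [val, Fin.sum_univ_eight, sec, tup0, Gp.cusp, hm_S hi]
    rw [h]; exact fin_low dvd_HS2 bd_HS2 (by linarith) (by norm_num)
  case x1 =>
    have h : val n (sec n (Polynomial.X ^ i) 2) .x1 = -HS n 3 i := by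
      simp [val, Fin.sum_univ_eight, sec, tup0, Gp.cusp, hm_S hi]
    rw [h]
    exact fin_top ((dvd_neg).2 dvd_HS3) (a := 1) (by simpa using bd_HS3.neg) (by linarith)
      (by norm_num)
  all_goals exact fin_no (by simp [val, Fin.sum_univ_eight, sec, tup0, Gp.cusp])

/-- type `5`: the row `f7` -/
theorem entry5 (hi : i ≤ n) (gr : Gp) :
    nv (coeff k (val n (sec n (Polynomial.X ^ i) 5) gr)) ≤ cst n k * bnd n i k (tab 5 gr) := by
  have h0 := one_le_sq n
  cases gr
  case z1 =>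
    have h : val n (sec n (Polynomial.X ^ i) 5) .z1 = HS n 0 i * sc (1 / 2) (lgm ^ 2) := by
      simp [val, Fin.sum_univ_eight, sec, tup0, Gp.cusp, hm_S hi]
    rw [h]; exact fin_one (bd_HS0.mul bd_lgm2) (by linarith) (by norm_num)
  case zl =>
    have h : val n (sec n (Polynomial.X ^ i) 5) .zl = HS n 0 i * sc (1 / 2) lgm := by
      simp [val, Fin.sum_univ_eight, sec, tup0, Gp.cusp, hm_S hi]
    rw [h]; exact fin_one (bd_HS0.mul bd_hlgm) (by linarith) (by norm_num)
  case w1 =>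
    have h : val n (sec n (Polynomial.X ^ i) 5) .w1 = HS n 1 i * sc (1 / 2) (lgm ^ 2) := by
      simp [val, Fin.sum_univ_eight, sec, tup0, Gp.cusp, hm_S hi]
    rw [h]; exact fin_up (bd_HS1.mul bd_lgm2) (by linarith) (by norm_num)
  case wl =>
    have h : val n (sec n (Polynomial.X ^ i) 5) .wl = HS n 1 i * sc (1 / 2) lgm := by
      simp [val, Fin.sum_univ_eight, sec, tup0, Gp.cusp, hm_S hi]
    rw [h]; exact fin_up (bd_HS1.mul bd_hlgm) (by linarith) (by norm_num)
  case wf7 =>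
    have h : val n (sec n (Polynomial.X ^ i) 5) .wf7 = HS n 1 i := by
      simp [val, Fin.sum_univ_eight, sec, tup0, Gp.cusp, hm_S hi]
    rw [h]; exact fin_up (a := 1) (by simpa using bd_HS1) (by linarith) (by norm_num)
  case v2 =>
    have h : val n (sec n (Polynomial.X ^ i) 5) .v2 = HS n 2 i := by
      simp [val, Fin.sum_univ_eight, sec, tup0, Gp.cusp, hm_S hi]
    rw [h]; exact fin_low dvd_HS2 bd_HS2 (by linarith) (by norm_num)
  case vl =>
    have h : val n (sec n (Polynomial.X ^ i) 5) .vl = HS n 2 i := by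
      simp [val, Fin.sum_univ_eight, sec, tup0, Gp.cusp, hm_S hi]
    rw [h]; exact fin_low dvd_HS2 bd_HS2 (by linarith) (by norm_num)
  case vb =>
    have h : val n (sec n (Polynomial.X ^ i) 5) .vb = HS n 2 i * lgm := by
      simp [val, Fin.sum_univ_eight, sec, tup0, Gp.cusp, hm_S hi]
    rw [h]
    exact fin_low (dvd_HS2.mul_right _) (bd_HS2.mul bd_lgm) (by linarith) (by norm_num)
  case x2 =>
    have h : val n (sec n (Polynomial.X ^ i) 5) .x2 = HS n 3 i * PowerSeries.C (1 / 2) := by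
      simp [val, Fin.sum_univ_eight, sec, tup0, Gp.cusp, hm_S hi]
    rw [h]
    exact fin_top (dvd_HS3.mul_right _) (bd_HS3.mul bd_half) (by linarith) (by norm_num)
  case xl =>
    have h : val n (sec n (Polynomial.X ^ i) 5) .xl = HS n 3 i := by
      simp [val, Fin.sum_univ_eight, sec, tup0, Gp.cusp, hm_S hi]
    rw [h]
    exact fin_top dvd_HS3 (a := 1) (by simpa using bd_HS3) (by linarith) (by norm_num)
  case x1 =>
    have h : val n (sec n (Polynomial.X ^ i) 5) .x1 = HS n 3 i * lgm := by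
      simp [val, Fin.sum_univ_eight, sec, tup0, Gp.cusp, hm_S hi]
    rw [h]
    exact fin_top (dvd_HS3.mul_right _) (bd_HS3.mul bd_lgm) (by linarith) (by norm_num)
  all_goals exact fin_no (by simp [val, Fin.sum_univ_eight, sec, tup0, Gp.cusp])

theorem geoa_lgm : integ (geoa * lgm) = Lam - sc (1 / 2) (lgm ^ 2) := by
  rw [← Lam_eq0]; ring

theorem lgp_lgm : lgp + lgm = EL := rfl

/-- type `3`: the row `Li2`, corrected at `c1` -/
theorem entry3 (hi : i ≤ n) (gr : Gp) (hk : gr = .x1 → k ≤ n) :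
    nv (coeff k (val n (sec n (Polynomial.X ^ i) 3) gr)) ≤ cst n k * bnd n i k (tab 3 gr) := by
  have h0 := one_le_sq n
  have hn : (0 : ℝ) ≤ n := Nat.cast_nonneg n
  have hin : (i : ℝ) ≤ n := by exact_mod_cast hi
  have h2 : ((i : ℝ) + 1) ^ 2 ≤ ((n : ℝ) + 1) ^ 2 := by gcongr
  have h3 : (1 / 2 : ℝ) ^ i * 2 ^ i = 1 := by rw [← mul_pow]; norm_num
  cases gr
  case z1 =>
    have h : val n (sec n (Polynomial.X ^ i) 3) .z1
        = hm n (cB 0) (cD 0) (trEK n (Polynomial.X ^ i))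
          - hm n (cB 0) (cD 0) (trE n (Polynomial.X ^ i)) * lgm + HS n 0 i * li2 := by
      simp [val, Fin.sum_univ_eight, sec, tup0, Gp.cusp, hm_S hi]
      ring
    rw [h]
    refine fin_one (a := ((n : ℝ) + 1) ^ 2) (c := 2) ((Bd.sub ?_ ?_).add ?_) (by linarith)
      (by norm_num)
    · exact (bd_trEK hi bd_cB0).mono le_rfl (by norm_num)
    · exact ((bd_trE hi bd_cB0).mul bd_lgm).mono (by nlinarith) (by norm_num)
    · exact (bd_HS0.mul bd_li2).mono (by linarith) (by norm_num)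
  case zab =>
    have h : val n (sec n (Polynomial.X ^ i) 3) .zab = HS n 0 i := by
      simp [val, Fin.sum_univ_eight, sec, tup0, Gp.cusp, hm_S hi]
    rw [h]; exact fin_one bd_HS0 (by linarith) (by norm_num)
  case w1 =>
    have e1 := tailE_S (n := n) (c := 1) hi cB1_Z0
    have e2 := tailEK_S (n := n) (c := 1) hi cB1_Z0
    have h : val n (sec n (Polynomial.X ^ i) 3) .w1
        = HS n 1 i * rhoK n i - lgm * (HS n 1 i * rho Z0 i) := by
      rw [← e1, ← e2]
      simp only [val, Fin.sum_univ_eight, sec, tup0, Gp.cusp]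
      simp [hm_S hi, Lam_eq1, Lam]
      ring
    rw [h]
    refine fin_one (a := ((n : ℝ) + 1) ^ 2) (c := 2) (Bd.sub ?_ ?_) (by linarith) (by norm_num)
    · refine (bd_HS1.mul (bd_rhoK n i hi)).mono (le_of_eq ?_) (by norm_num)
      rw [← mul_assoc, mul_comm ((2 : ℝ) ^ i), h3, one_mul]
    · refine (bd_lgm.mul (bd_HS1.mul (bd_rho0 i))).mono ?_ (by norm_num)
      rw [← mul_assoc ((2 : ℝ) ^ i), mul_comm ((2 : ℝ) ^ i), h3, one_mul, one_mul]
      exact h2
  case wl =>
    have e1 := tailE_S (n := n) (c := 1) hi cB1_Z0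
    have h : val n (sec n (Polynomial.X ^ i) 3) .wl = -(HS n 1 i * rho Z0 i) := by
      rw [← e1]
      simp only [val, Fin.sum_univ_eight, sec, tup0, Gp.cusp]
      simp [hm_S hi, EL]
      ring
    rw [h]
    refine fin_one (a := ((n : ℝ) + 1) ^ 2) (c := 2) ?_ (by linarith) (by norm_num)
    refine ((bd_HS1.mul (bd_rho0 i)).neg).mono ?_ (by norm_num)
    rw [← mul_assoc ((2 : ℝ) ^ i), mul_comm ((2 : ℝ) ^ i), h3, one_mul]
    exact h2
  case wy =>
    have h : val n (sec n (Polynomial.X ^ i) 3) .wy = -(HS n 1 i * PowerSeries.C (4 / 3)) := by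
      simp [val, Fin.sum_univ_eight, sec, tup0, Gp.cusp, hm_S hi]
    rw [h]
    exact fin_up (bd_HS1.mul bd_four_thirds).neg (by linarith) (by norm_num)
  case wab =>
    have h : val n (sec n (Polynomial.X ^ i) 3) .wab = HS n 1 i := by
      simp [val, Fin.sum_univ_eight, sec, tup0, Gp.cusp, hm_S hi]
    rw [h]; exact fin_up (a := 1) (by simpa using bd_HS1) (by linarith) (by norm_num)
  case v2 =>
    have h : val n (sec n (Polynomial.X ^ i) 3) .v2 = -HS n 2 i := by
      simp [val, Fin.sum_univ_eight, sec, tup0, Gp.cusp, hm_S hi]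
    rw [h]; exact fin_low ((dvd_neg).2 dvd_HS2) bd_HS2.neg (by linarith) (by norm_num)
  case vb =>
    have h : val n (sec n (Polynomial.X ^ i) 3) .vb
        = -hm n (cB 2) (cD 2) (trE n (Polynomial.X ^ i)) := by
      simp [val, Fin.sum_univ_eight, sec, tup0, Gp.cusp]
    rw [h]
    exact fin_one (bd_trE hi bd_cB2).neg (by nlinarith) (by norm_num)
  case x1 =>
    have e1 := tailE_S (n := n) (c := 3) hi cB3_Z1
    have h : val n (sec n (Polynomial.X ^ i) 3) .x1 = -(HS n 3 i * rho Z1 i) := by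
      rw [← e1]
      simp only [val, Fin.sum_univ_eight, sec, tup0, Gp.cusp]
      simp [hm_S hi, EL]
      ring
    rw [h]
    refine fin_no' ((dvd_neg).2 ?_) (hk rfl)
    have : (X : PowerSeries ℚ) ^ (n + 1) = X ^ (n - i) * X ^ (i + 1) := by
      rw [← pow_add]; congr 1; omega
    rw [this]
    exact mul_dvd_mul dvd_HS3 (rho1_dvd i)
  all_goals exact fin_no (by simp [val, Fin.sum_univ_eight, sec, tup0, Gp.cusp])

/-- type `4`: the row `f6 + f7`, corrected at `c0` -/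
theorem entry4 (hi : i ≤ n) (gr : Gp) (hk : gr = .vb → k ≤ n) :
    nv (coeff k (val n (sec n (Polynomial.X ^ i) 4) gr)) ≤ cst n k * bnd n i k (tab 4 gr) := by
  have h0 := one_le_sq n
  have hn : (0 : ℝ) ≤ n := Nat.cast_nonneg n
  have h2 : (((n - i : ℕ) : ℝ) + 1) ^ 2 ≤ ((n : ℝ) + 1) ^ 2 := by
    have : ((n - i : ℕ) : ℝ) ≤ n := by exact_mod_cast Nat.sub_le n i
    gcongr
  cases gr
  case z1 =>
    have e1 := tailA_S (n := n) (c := 0) hi two_cB0
    have e2 := tailAK_S (n := n) (c := 0) hi two_cB0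
    have h : val n (sec n (Polynomial.X ^ i) 4) .z1
        = lgm * (HS n 0 i * rho Z0 (n - i)) - HS n 0 i * rhoK n (n - i) := by
      rw [← e1, ← e2]
      simp only [val, Fin.sum_univ_eight, sec, tup0, Gp.cusp]
      simp [hm_S hi, geoa_lgm, Lam]
      ring
    rw [h]
    refine fin_down (a := ((n : ℝ) + 1) ^ 2) (c := 2) (Bd.sub ?_ ?_) (by linarith) (by norm_num)
    · refine (bd_lgm.mul (bd_HS0.mul (bd_rho0 (n - i)))).mono ?_ (by norm_num)
      rw [one_mul, one_mul]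
      gcongr
    · exact (bd_HS0.mul (bd_rhoK n (n - i) (Nat.sub_le n i))).mono (le_of_eq (one_mul _))
        (by norm_num)
  case zl =>
    have e1 := tailA_S (n := n) (c := 0) hi two_cB0
    have h : val n (sec n (Polynomial.X ^ i) 4) .zl = HS n 0 i * rho Z0 (n - i) := by
      rw [← e1]
      simp only [val, Fin.sum_univ_eight, sec, tup0, Gp.cusp]
      simp [hm_S hi, EL, sc]
      have h5 : (PowerSeries.C (2⁻¹ : ℚ) : PowerSeries ℚ) * 2 = 1 := by
        rw [← half_two, one_div]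
      linear_combination (HS n 0 i * lgm) * h5
    rw [h]
    refine fin_down (a := ((n : ℝ) + 1) ^ 2) (c := 2) ?_ (by linarith) (by norm_num)
    refine (bd_HS0.mul (bd_rho0 (n - i))).mono ?_ (by norm_num)
    rw [one_mul]
    gcongr
  case w1 =>
    have h : val n (sec n (Polynomial.X ^ i) 4) .w1
        = hm n (cB 1) (cD 1) (trAK n (Polynomial.X ^ i))
          + hm n (cB 1) (cD 1) (trA n (Polynomial.X ^ i)) * lgm - HS n 1 i * li2 := by
      simp [val, Fin.sum_univ_eight, sec, tup0, Gp.cusp, hm_S hi]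
      ring
    rw [h]
    refine fin_up (a := ((n : ℝ) + 1) ^ 2) (c := 2) ((Bd.add ?_ ?_).sub ?_) (by linarith)
      (by norm_num)
    · exact (bd_trAK hi bd_cB1).mono le_rfl (by norm_num)
    · refine ((bd_trA hi bd_cB1).mul bd_lgm).mono ?_ (by norm_num)
      rw [mul_one]
      have : (n : ℝ) + 1 ≤ ((n : ℝ) + 1) ^ 2 := by nlinarith
      gcongr
    · refine (bd_HS1.mul bd_li2).mono ?_ (by norm_num)
      gcongr
  case wl => exact fin_no (by simp [val, Fin.sum_univ_eight, sec, tup0, Gp.cusp])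
  case wy =>
    have h : val n (sec n (Polynomial.X ^ i) 4) .wy = -(HS n 1 i * PowerSeries.C (4 / 3)) := by
      simp [val, Fin.sum_univ_eight, sec, tup0, Gp.cusp, hm_S hi]
    rw [h]
    exact fin_up (bd_HS1.mul bd_four_thirds).neg (by linarith) (by norm_num)
  case wf7 =>
    have h : val n (sec n (Polynomial.X ^ i) 4) .wf7 = HS n 1 i := by
      simp [val, Fin.sum_univ_eight, sec, tup0, Gp.cusp, hm_S hi]
    rw [h]; exact fin_up (a := 1) (by simpa using bd_HS1) (by linarith) (by norm_num)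
  case v2 => exact fin_no (by simp [val, Fin.sum_univ_eight, sec, tup0, Gp.cusp])
  case vl => exact fin_no (by simp [val, Fin.sum_univ_eight, sec, tup0, Gp.cusp])
  case vb =>
    have e1 := tailA_S (n := n) (c := 2) hi two_cB2
    have h : val n (sec n (Polynomial.X ^ i) 4) .vb = HS n 2 i * rho Z1 (n - i) := by
      rw [← e1]
      simp only [val, Fin.sum_univ_eight, sec, tup0, Gp.cusp]
      simp [hm_S hi, EL]
      ring
    rw [h]
    refine fin_no' ?_ (hk rfl)
    have : (X : PowerSeries ℚ) ^ (n + 1) = X ^ i * X ^ (n - i + 1) := by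
      rw [← pow_add]; congr 1; omega
    rw [this]
    exact mul_dvd_mul dvd_HS2 (rho1_dvd _)
  case x2 =>
    have h : val n (sec n (Polynomial.X ^ i) 4) .x2 = HS n 3 i * PowerSeries.C (1 / 2) := by
      simp [val, Fin.sum_univ_eight, sec, tup0, Gp.cusp, hm_S hi]
    rw [h]
    exact fin_top (dvd_HS3.mul_right _) (bd_HS3.mul bd_half) (by linarith) (by norm_num)
  case xl => exact fin_no (by simp [val, Fin.sum_univ_eight, sec, tup0, Gp.cusp])
  case x1 =>
    have h : val n (sec n (Polynomial.X ^ i) 4) .x1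
        = hm n (cB 3) (cD 3) (trA n (Polynomial.X ^ i)) := by
      simp [val, Fin.sum_univ_eight, sec, tup0, Gp.cusp, hm_S hi]
    rw [h]
    exact fin_up (bd_trA hi bd_cB3) (by nlinarith) (by norm_num)
  all_goals exact fin_no (by simp [val, Fin.sum_univ_eight, sec, tup0, Gp.cusp])

/-- **the entries of the adapted polylogarithmic rows** -/
theorem entry_bound (hi : i ≤ n) (ty : Fin 8) (hty : (ty : ℕ) < 6) (gr : Gp)
    (hk : gr = .vb ∨ gr = .x1 → k ≤ n) :
    nv (coeff k (val n (sec n (Polynomial.X ^ i) ty) gr)) ≤ cst n k * bnd n i k (tab ty gr) := by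
  fin_cases ty
  · exact entry0 hi gr
  · exact entry1 hi gr
  · exact entry2 hi gr
  · exact entry3 hi gr fun h => hk (Or.inr h)
  · exact entry4 hi gr fun h => hk (Or.inl h)
  · exact entry5 hi gr
  · exact absurd hty (by norm_num)
  · exact absurd hty (by norm_num)

/-- the polylogarithmic rows do not see `x` -/
theorem val1_eq_zero (h : Polynomial ℚ) (ty : Fin 8) (hty : (ty : ℕ) < 6) (gr : Gp) :
    val1 n (sec n h ty) gr = 0 := by
  fin_cases ty
  · cases gr <;> simp [val1, Fin.sum_univ_eight, sec, tup1, Gp.cusp]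
  · cases gr <;> simp [val1, Fin.sum_univ_eight, sec, tup1, Gp.cusp]
  · cases gr <;> simp [val1, Fin.sum_univ_eight, sec, tup1, Gp.cusp]
  · cases gr <;> simp [val1, Fin.sum_univ_eight, sec, tup1, Gp.cusp]
  · cases gr <;> simp [val1, Fin.sum_univ_eight, sec, tup1, Gp.cusp]
  · cases gr <;> simp [val1, Fin.sum_univ_eight, sec, tup1, Gp.cusp]
  · exact absurd hty (by norm_num)
  · exact absurd hty (by norm_num)

end table

end Vale.Agent.P030.H486
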