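import Vale.Agent.P030.T.Defs
import Vale.Agent.P030.H486.Cst

/-!
# P030, the 2-adic place: tails of `log (1 - Z)` and of the dilogarithm

`E = log((1+t)/(1-t))`, `Z = 2/(1-t)` or `Z = -2t/(1-t)`: in both cases `(1 - Z) E' = - Z'`, hence
`rho N = E + Σ_{k<N} Z^(k+1)/(k+1)` has the derivative `Z^N E'`, which is divisible by `2^N`.
-/

namespace Vale.Agent.P030.H486

open PowerSeries Finset
open Vale.Agent.P030.T

/-! ### derivatives of the series of `T/Defs` -/

/-- the formal derivative -/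
noncomputable abbrev dX : Derivation ℚ ℚ⟦X⟧ ℚ⟦X⟧ := PowerSeries.derivative ℚ

theorem geo_mul : (1 - X : ℚ⟦X⟧) * geo = 1 := by
  have : (geo : ℚ⟦X⟧) = PowerSeries.mk 1 := by ext n; simp [geo]
  rw [this, mul_comm]; exact mk_one_mul_one_sub_eq_one ℚ

theorem geoa_mul : (1 + X : ℚ⟦X⟧) * geoa = 1 := by
  ext n
  rcases n with _ | n
  · simp [geoa, add_mul]
  · rw [add_mul, one_mul, map_add, coeff_succ_X_mul]
    simp [geoa, pow_succ, coeff_one]

theorem geo2_eq : (geo + geoa : ℚ⟦X⟧) = C 2 * geo2 := by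
  ext n
  rw [map_add, coeff_C_mul]
  simp only [geo, geoa, geo2, coeff_mk]
  rcases Nat.even_or_odd n with h | h
  · rw [if_pos h, h.neg_one_pow]; norm_num
  · rw [if_neg (Nat.not_even_iff_odd.2 h), h.neg_one_pow]; norm_num

theorem integ_derivative (f : ℚ⟦X⟧) : dX (integ f) = f := by
  ext n
  rw [coeff_derivative]
  simp only [integ, coeff_mk]
  have : (n : ℚ) + 1 ≠ 0 := by positivity
  simp
  field_simp

theorem integ_const (f : ℚ⟦X⟧) : constantCoeff (integ f) = 0 := by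
  rw [← coeff_zero_eq_constantCoeff_apply]; simp [integ]

theorem lgm_derivative : dX lgm = geo := by
  ext n
  rw [coeff_derivative]
  simp only [lgm, geo, coeff_mk]
  have : (n : ℚ) + 1 ≠ 0 := by positivity
  simp
  field_simp

theorem lgp_derivative : dX lgp = geoa := by
  ext n
  rw [coeff_derivative]
  simp only [lgp, geoa, coeff_mk]
  have : (n : ℚ) + 1 ≠ 0 := by positivity
  simp [pow_succ]
  field_simp

theorem lgm_const : constantCoeff lgm = 0 := by
  rw [← coeff_zero_eq_constantCoeff_apply]; simp [lgm]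

theorem lgp_const : constantCoeff lgp = 0 := by
  rw [← coeff_zero_eq_constantCoeff_apply]; simp [lgp]

theorem geo_derivative : dX geo = geo ^ 2 := by
  have h := congrArg (dX) geo_mul
  rw [Derivation.leibniz] at h
  simp only [smul_eq_mul, map_sub, derivative_X, Derivation.map_one_eq_zero, zero_sub,
    mul_neg, mul_one] at h
  have h2 : geo * ((1 - X) * dX geo + -geo) = 0 := by rw [h, mul_zero]
  have h3 : (1 - X : ℚ⟦X⟧) * geo = 1 := geo_mul
  linear_combination h2 - (dX geo) * h3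

/-! ### the logarithm and the two values of `Z` -/

/-- `log ((1+t)/(1-t))` -/
noncomputable def EL : ℚ⟦X⟧ := lgp + lgm

/-- `2/(1-t)` -/
noncomputable def Z0 : ℚ⟦X⟧ := C 2 * geo

/-- `-2t/(1-t)` -/
noncomputable def Z1 : ℚ⟦X⟧ := C 2 * (-(X * geo))

theorem EL_derivative : dX EL = geo + geoa := by
  rw [EL, map_add, lgm_derivative, lgp_derivative, add_comm]

theorem EL_const : constantCoeff EL = 0 := by
  rw [EL, map_add, lgm_const, lgp_const, add_zero]

theorem Z0_derivative : dX Z0 = Z0 * geo := by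
  rw [Z0, Derivation.leibniz, geo_derivative]
  simp only [smul_eq_mul, derivative_C, mul_zero, add_zero]
  ring

theorem C_two : (C 2 : ℚ⟦X⟧) = 2 := map_ofNat C 2

theorem geo_add_geoa : (geo + geoa : ℚ⟦X⟧) = 2 * (geo * geoa) := by
  have h1 := geo_mul
  have h2 := geoa_mul
  linear_combination (-geo) * h2 - geoa * h1

theorem Z0_rel : dX EL + dX Z0 = Z0 * dX EL := by
  rw [EL_derivative, Z0_derivative, Z0, C_two, geo_add_geoa]
  linear_combination (2 * geo) * geo_add_geoa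

theorem Z1_derivative : dX Z1 = -(C 2 * geo ^ 2) := by
  rw [Z1, Derivation.leibniz, map_neg, Derivation.leibniz, geo_derivative]
  simp only [smul_eq_mul, derivative_C, derivative_X, mul_zero, add_zero, mul_one]
  rw [C_two]
  linear_combination (2 * geo) * geo_mul

theorem Z1_rel : dX EL + dX Z1 = Z1 * dX EL := by
  rw [EL_derivative, Z1_derivative, Z1, C_two, geo_add_geoa]
  linear_combination (2 * geo ^ 2) * geoa_mul - (2 * geo * geoa) * geo_mul

/-! ### tails of the logarithm -/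

/-- `E + Σ_{k<N} Z^(k+1)/(k+1)` -/
noncomputable def rho (Z : ℚ⟦X⟧) (N : ℕ) : ℚ⟦X⟧ :=
  EL + ∑ k ∈ range N, C (1 / ((k : ℚ) + 1)) * Z ^ (k + 1)

theorem derivative_term (Z : ℚ⟦X⟧) (k : ℕ) (q : ℚ) :
    dX (C q * Z ^ (k + 1)) = C (q * ((k : ℚ) + 1)) * Z ^ k * dX Z := by
  rw [Derivation.leibniz, Derivation.leibniz_pow, derivative_C]
  simp only [smul_eq_mul, mul_zero, add_zero, Nat.add_sub_cancel, nsmul_eq_mul]
  have : (((k + 1 : ℕ)) : ℚ⟦X⟧) = C ((k : ℚ) + 1) := by
    rw [map_add, map_one, map_natCast]; push_cast; ring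
  rw [this, map_mul]
  ring

theorem rho_derivative (Z : ℚ⟦X⟧) (hZ : dX EL + dX Z = Z * dX EL) (N : ℕ) :
    dX (rho Z N) = Z ^ N * dX EL := by
  induction N with
  | zero => simp [rho]
  | succ N ih =>
    have h1 : rho Z (N + 1) = rho Z N + C (1 / ((N : ℚ) + 1)) * Z ^ (N + 1) := by
      rw [rho, sum_range_succ, ← add_assoc, ← rho]
    rw [h1, map_add, ih, derivative_term]
    have h2 : (1 / ((N : ℚ) + 1)) * ((N : ℚ) + 1) = 1 := by
      have : (N : ℚ) + 1 ≠ 0 := by positivity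
      field_simp
    rw [h2, map_one, one_mul]
    linear_combination (Z ^ N) * hZ

theorem bd_geo : Bd 1 0 (geo : ℚ⟦X⟧) := Bd.of_int fun k => ⟨1, by simp [T.geo]⟩
theorem bd_geoa : Bd 1 0 (geoa : ℚ⟦X⟧) := Bd.of_int fun k => ⟨(-1) ^ k, by simp [T.geoa]⟩
theorem bd_geo2 : Bd 1 0 (geo2 : ℚ⟦X⟧) := Bd.of_int fun k => by
  by_cases h : Even k
  · exact ⟨1, by simp [T.geo2, h]⟩
  · exact ⟨0, by simp [T.geo2, h]⟩

theorem Bd.of_integ {a : ℝ} {c : ℕ} {f : ℚ⟦X⟧} (h : Bd a c f) : Bd a (c + 1) (integ f) := by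
  refine Bd.of_derivative (by rwa [integ_derivative]) ?_
  rw [coeff_zero_eq_constantCoeff_apply, integ_const, nv_zero]
  exact h.nonneg

theorem bd_lgm : Bd 1 1 (lgm : ℚ⟦X⟧) := Bd.of_derivative (by rw [lgm_derivative]; exact bd_geo)
  (by rw [coeff_zero_eq_constantCoeff_apply, lgm_const]; simp)

theorem bd_lgp : Bd 1 1 (lgp : ℚ⟦X⟧) := Bd.of_derivative (by rw [lgp_derivative]; exact bd_geoa)
  (by rw [coeff_zero_eq_constantCoeff_apply, lgp_const]; simp)

theorem bd_EL : Bd 1 1 EL := bd_lgp.add bd_lgm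

theorem bd_dEL : Bd 1 0 (dX EL) := by rw [EL_derivative]; exact bd_geo.add bd_geoa

theorem bd_Z0 : Bd (1 / 2) 0 Z0 := by
  have := Bd.Cmul (q := 2) (a := 1 / 2) (by rw [nv_two]) bd_geo
  simpa [Z0] using this

theorem bd_Z1 : Bd (1 / 2) 0 Z1 := by
  have := Bd.Cmul (q := 2) (a := 1 / 2) (by rw [nv_two]) ((Bd.X.mul bd_geo).neg)
  simpa [Z1] using this

theorem Z0_const : constantCoeff Z0 = 2 := by
  rw [Z0, map_mul, constantCoeff_C, ← coeff_zero_eq_constantCoeff_apply]; simp [geo]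

theorem Z1_const : constantCoeff Z1 = 0 := by
  rw [Z1, map_mul, map_neg, map_mul, constantCoeff_X]; simp

theorem rho_const (Z : ℚ⟦X⟧) (N : ℕ) : constantCoeff (rho Z N)
    = ∑ k ∈ range N, (1 / ((k : ℚ) + 1)) * (constantCoeff Z) ^ (k + 1) := by
  rw [rho, map_add, EL_const, zero_add, map_sum]
  exact sum_congr rfl fun k _ => by rw [map_mul, map_pow, constantCoeff_C]

theorem bd_rho0 (N : ℕ) : Bd ((1 / 2) ^ N * ((N : ℝ) + 1) ^ 2) 1 (rho Z0 N) := by
  have h1 : Bd ((1 / 2) ^ N) 0 (dX (rho Z0 N)) := by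
    rw [rho_derivative _ Z0_rel]
    simpa using (bd_Z0.pow N).mul bd_dEL
  have h0 : (1 : ℝ) ≤ ((N : ℝ) + 1) ^ 2 := by
    have : (0 : ℝ) ≤ N := Nat.cast_nonneg N
    nlinarith
  refine Bd.of_derivative (h1.mono ?_ le_rfl) ?_
  · have : (0 : ℝ) ≤ (1 / 2) ^ N := by positivity
    nlinarith
  · rw [coeff_zero_eq_constantCoeff_apply, rho_const, Z0_const]
    have h2 : ∑ k ∈ range N, (1 / ((k : ℚ) + 1)) * (2 : ℚ) ^ (k + 1)
        = ∑ k ∈ range N, (2 : ℚ) ^ (k + 1) / (k + 1) := sum_congr rfl fun k _ => by ring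
    rw [h2]
    exact nv_sum_two_pow N

theorem bd_rho1 (N : ℕ) : Bd ((1 / 2) ^ N) 1 (rho Z1 N) := by
  have h1 : Bd ((1 / 2) ^ N) 0 (dX (rho Z1 N)) := by
    rw [rho_derivative _ Z1_rel]
    simpa using (bd_Z1.pow N).mul bd_dEL
  refine Bd.of_derivative h1 ?_
  rw [coeff_zero_eq_constantCoeff_apply, rho_const, Z1_const]
  simp

/-- a series with small constant term and derivative divisible by `X^N` -/
theorem X_pow_dvd_of_derivative {f : ℚ⟦X⟧} {N : ℕ} (h : X ^ N ∣ dX f)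
    (h0 : constantCoeff f = 0) : X ^ (N + 1) ∣ f := by
  rw [X_pow_dvd_iff] at h ⊢
  intro m hm
  rcases m with _ | m
  · rwa [coeff_zero_eq_constantCoeff_apply]
  · have h1 := h m (by omega)
    rw [coeff_derivative] at h1
    have h2 : ((m : ℚ) + 1) ≠ 0 := by positivity
    exact (mul_eq_zero.1 h1).resolve_right h2

theorem rho1_dvd (N : ℕ) : X ^ (N + 1) ∣ rho Z1 N := by
  refine X_pow_dvd_of_derivative ?_ (by rw [rho_const, Z1_const]; simp)
  rw [rho_derivative _ Z1_rel]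
  refine Dvd.dvd.mul_right ?_ _
  have h : Z1 = X * (-(C 2 * geo)) := by rw [Z1]; ring
  rw [h, mul_pow]
  exact Dvd.intro _ rfl

/-! ### the dilogarithm -/

/-- `∫ E dt/(1-t)` -/
noncomputable def kap : ℚ⟦X⟧ := integ (geo * EL)

theorem kap_derivative : dX kap = geo * EL := integ_derivative _

/-- `Σ_{k<M} 2^(k+1)/(k+1)²`, an approximation of `Li2(2)` -/
def kc (M : ℕ) : ℚ := ∑ k ∈ range M, (2 : ℚ) ^ (k + 1) / ((k : ℚ) + 1) ^ 2

/-- tail of the dilogarithm -/
noncomputable def rhoK (M N : ℕ) : ℚ⟦X⟧ :=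
  kap + ∑ k ∈ range N, C (1 / ((k : ℚ) + 1) ^ 2) * Z0 ^ (k + 1) - C (kc M)

theorem rhoK_derivative (M N : ℕ) : dX (rhoK M N) = geo * rho Z0 N := by
  rw [rhoK, map_sub, map_add, kap_derivative, map_sum, derivative_C, sub_zero, rho, mul_add,
    mul_sum]
  congr 1
  refine sum_congr rfl fun k _ => ?_
  rw [derivative_term, Z0_derivative]
  have : 1 / ((k : ℚ) + 1) ^ 2 * ((k : ℚ) + 1) = 1 / ((k : ℚ) + 1) := by
    have : (k : ℚ) + 1 ≠ 0 := by positivity
    field_simp
  rw [this, pow_succ]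
  ring

theorem nv_kterm (k : ℕ) : nv ((2 : ℚ) ^ (k + 1) / ((k : ℚ) + 1) ^ 2)
    ≤ (1 / 2) ^ (k + 1) * ((k : ℝ) + 1) ^ 2 := by
  rw [nv_div, nv_two_pow, nv_pow, div_eq_mul_inv, ← inv_pow]
  have h := nv_nat_inv (k + 1) (by omega)
  rw [nv_div, nv_one, one_div] at h
  have h2 : (nv ((k : ℚ) + 1))⁻¹ ≤ (k : ℝ) + 1 := by exact_mod_cast h
  have h3 : 0 ≤ (nv ((k : ℚ) + 1))⁻¹ := inv_nonneg.2 (nv_nonneg _)
  gcongr

theorem bd_rhoK (M N : ℕ) (hN : N ≤ M) :
    Bd ((1 / 2) ^ N * ((M : ℝ) + 1) ^ 2) 2 (rhoK M N) := by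
  have hNM : (N : ℝ) ≤ M := by exact_mod_cast hN
  refine Bd.of_derivative ?_ ?_
  · rw [rhoK_derivative]
    have := bd_geo.mul (bd_rho0 N)
    rw [one_mul, zero_add] at this
    refine this.mono ?_ le_rfl
    gcongr
  · rw [coeff_zero_eq_constantCoeff_apply]
    have h1 : constantCoeff (rhoK M N) = -∑ k ∈ Ico N M, (2 : ℚ) ^ (k + 1) / ((k : ℚ) + 1) ^ 2 := by
      rw [rhoK, map_sub, map_add, kap, integ_const, zero_add, map_sum, constantCoeff_C, kc]
      rw [← sum_range_add_sum_Ico _ hN]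
      have : ∑ k ∈ range N, constantCoeff (C (1 / ((k : ℚ) + 1) ^ 2) * Z0 ^ (k + 1))
          = ∑ k ∈ range N, (2 : ℚ) ^ (k + 1) / ((k : ℚ) + 1) ^ 2 :=
        sum_congr rfl fun k _ => by
          rw [map_mul, map_pow, constantCoeff_C, Z0_const]; ring
      rw [this]
      ring
    rw [h1, nv_neg]
    refine nv_sum_le _ _ (by positivity) fun k hk => (nv_kterm k).trans ?_
    have hk' := mem_Ico.1 hk
    have h3 : ((k : ℝ) + 1) ≤ (M : ℝ) + 1 := by
      have : (k : ℝ) ≤ M := by exact_mod_cast hk'.2.le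
      linarith
    refine mul_le_mul ?_ (by gcongr) (by positivity) (by positivity)
    exact pow_le_pow_of_le_one (by norm_num) (by norm_num) (by omega)

theorem nv_kc (M : ℕ) : nv (kc M) ≤ ((M : ℝ) + 1) ^ 2 := by
  refine nv_sum_le _ _ (by positivity) fun k hk => (nv_kterm k).trans ?_
  have hk' := mem_range.1 hk
  have h3 : ((k : ℝ) + 1) ≤ (M : ℝ) + 1 := by
    have : (k : ℝ) ≤ M := by exact_mod_cast hk'.le
    linarith
  calc (1 / 2 : ℝ) ^ (k + 1) * ((k : ℝ) + 1) ^ 2 ≤ 1 * ((M : ℝ) + 1) ^ 2 := by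
        refine mul_le_mul (pow_le_one₀ (by norm_num) (by norm_num)) (by gcongr)
          (by positivity) zero_le_one
    _ = _ := one_mul _

/-- the weight two component `f6 + f7` at `c0` -/
noncomputable def Lam : ℚ⟦X⟧ := EL * lgm - kap

theorem Lam_eq0 : integ (geoa * lgm) + sc (1 / 2) (lgm ^ 2) = Lam := by
  refine derivative.ext ?_ ?_
  · rw [map_add, integ_derivative, sc, Derivation.leibniz, Derivation.leibniz_pow, lgm_derivative,
      derivative_C, Lam, map_sub, Derivation.leibniz, kap_derivative, EL_derivative,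
      lgm_derivative]
    simp only [smul_eq_mul, mul_zero, add_zero, nsmul_eq_mul]
    have : (C (1 / 2 : ℚ) : ℚ⟦X⟧) * 2 = 1 := by
      rw [← C_two, ← map_mul]; norm_num
    push_cast
    norm_num
    linear_combination (lgm * geo) * this
  · rw [map_add, integ_const, Lam, map_sub, map_mul, EL_const, kap, integ_const, sc, map_mul,
      map_pow, lgm_const]
    simp

theorem Lam_eq1 : sc 2 (integ (geo2 * lgm)) = Lam := by
  refine derivative.ext ?_ ?_
  · rw [sc, Derivation.leibniz, integ_derivative, derivative_C, Lam, map_sub,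
      Derivation.leibniz, kap_derivative, EL_derivative, lgm_derivative, geo2_eq]
    simp only [smul_eq_mul, mul_zero, add_zero]
    ring
  · rw [sc, map_mul, integ_const, Lam, map_sub, map_mul, EL_const, kap, integ_const]
    simp

theorem bd_kap : Bd 1 2 kap := by
  have := (bd_geo.mul bd_EL).of_integ
  simpa [kap] using this

theorem bd_Lam : Bd 1 2 Lam := by
  have h := bd_EL.mul bd_lgm
  rw [one_mul] at h
  exact h.sub bd_kap

end Vale.Agent.P030.H486
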