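import Vale.Agent.P030.H486.Table

/-!
# P030, the 2-adic place: the columns `P_6` and `P_7 - P_6` at `c1`

They span, together with `wab` and `w8`, the columns `wy, w8, wab, wf7` of the same order.
-/

namespace Vale.Agent.P030.H486

open Finset PowerSeries
open Vale.Agent.P030.T

/-- the value of a section for any 8-tuple of series at the cusp `c` -/
noncomputable def valt (n : ℕ) (P : Fin 8 → Polynomial ℚ) (c : Fin 4)
    (tup : Fin 8 → PowerSeries ℚ) : PowerSeries ℚ :=
  ∑ j, hm n (cB c) (cD c) (P j) * tup j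

theorem valt_tup0 (n : ℕ) (P : Fin 8 → Polynomial ℚ) (gr : Gp) :
    valt n P gr.cusp (tup0 gr) = val n P gr := rfl

theorem valt_add (n : ℕ) (P : Fin 8 → Polynomial ℚ) (c : Fin 4) (a b : Fin 8 → PowerSeries ℚ) :
    valt n P c (a + b) = valt n P c a + valt n P c b := by
  simp [valt, mul_add, sum_add_distrib]

theorem valt_smul (n : ℕ) (P : Fin 8 → Polynomial ℚ) (c : Fin 4) (q : ℚ)
    (a : Fin 8 → PowerSeries ℚ) : valt n P c (q • a) = q • valt n P c a := by
  simp [valt, smul_sum]

/-- the entries of any tuple, through the rows `μ_i e_j` -/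
theorem rowv_tup (n : ℕ) (P : Fin 8 → Polynomial ℚ) (gr : Gp) (tup : Fin 8 → PowerSeries ℚ)
    (k : ℕ) : ∑ c : Fin (n + 1) × Fin 8, rowv n P c * coeff k (mon (n + 1) gr.cusp c.1 * tup c.2)
      = coeff k (valt n P gr.cusp tup) := sum_ent n P gr k tup

/-- `P_6` -/
noncomputable def t6 : Fin 8 → PowerSeries ℚ := ![0, 0, 0, 0, 1, 0, 0, 0]

/-- `P_7 - P_6` -/
noncomputable def td : Fin 8 → PowerSeries ℚ := ![0, 0, 0, 0, -1, 1, 0, 0]

theorem wf7_eq : tup0 .wf7 = t6 + td := by
  funext j
  fin_cases j <;> simp [tup0, t6, td]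

theorem wy_eq : tup0 .wy = (-(4 / 3) : ℚ) • (tup0 .wab + t6) + (-1 : ℚ) • tup0 .w8 := by
  funext j
  fin_cases j <;> simp [tup0, t6, smul_C]

theorem t6_eq : t6 = (-(3 / 4) : ℚ) • (tup0 .wy + tup0 .w8) + (-1 : ℚ) • tup0 .wab := by
  rw [wy_eq]
  funext j
  simp only [Pi.add_apply, Pi.smul_apply, smul_C]
  have h : (PowerSeries.C (-(3 / 4) : ℚ) : PowerSeries ℚ) * PowerSeries.C (-(4 / 3)) = 1 := by
    rw [← map_mul]; norm_num
  have h1 : (PowerSeries.C (-1 : ℚ) : PowerSeries ℚ) = -1 := by rw [map_neg, map_one]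
  rw [h1]
  linear_combination (-(tup0 .wab j + t6 j)) * h

section

variable {n i k : ℕ}

/-- kinds of the column `P_6` at `c1` -/
def tab6 : Fin 8 → Kd
  | 4 => .up
  | _ => .no

/-- kinds of the column `P_7 - P_6` at `c1` -/
def tabd : Fin 8 → Kd
  | 5 => .up
  | _ => .no

theorem entry_t6 (hi : i ≤ n) (ty : Fin 8) (hty : (ty : ℕ) < 6) :
    nv (coeff k (valt n (sec n (Polynomial.X ^ i) ty) 1 t6)) ≤ cst n k * bnd n i k (tab6 ty) := by
  have h0 := one_le_sq n
  fin_cases ty
  · exact fin_no (by simp [valt, Fin.sum_univ_eight, sec, t6])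
  · exact fin_no (by simp [valt, Fin.sum_univ_eight, sec, t6])
  · exact fin_no (by simp [valt, Fin.sum_univ_eight, sec, t6])
  · exact fin_no (by simp [valt, Fin.sum_univ_eight, sec, t6])
  · have h : valt n (sec n (Polynomial.X ^ i) 4) 1 t6 = HS n 1 i := by
      simp [valt, Fin.sum_univ_eight, sec, t6, hm_S hi]
    show nv (coeff k (valt n (sec n (Polynomial.X ^ i) 4) 1 t6)) ≤ cst n k * bnd n i k .up
    rw [h]; exact fin_up (a := 1) (by simpa using bd_HS1) (by linarith) (by norm_num)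
  · exact fin_no (by simp [valt, Fin.sum_univ_eight, sec, t6])
  · exact absurd hty (by norm_num)
  · exact absurd hty (by norm_num)

theorem entry_td (hi : i ≤ n) (ty : Fin 8) (hty : (ty : ℕ) < 6) :
    nv (coeff k (valt n (sec n (Polynomial.X ^ i) ty) 1 td)) ≤ cst n k * bnd n i k (tabd ty) := by
  have h0 := one_le_sq n
  fin_cases ty
  · exact fin_no (by simp [valt, Fin.sum_univ_eight, sec, td])
  · exact fin_no (by simp [valt, Fin.sum_univ_eight, sec, td])
  · exact fin_no (by simp [valt, Fin.sum_univ_eight, sec, td])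
  · exact fin_no (by simp [valt, Fin.sum_univ_eight, sec, td])
  · exact fin_no (by simp [valt, Fin.sum_univ_eight, sec, td])
  · have h : valt n (sec n (Polynomial.X ^ i) 5) 1 td = HS n 1 i := by
      simp [valt, Fin.sum_univ_eight, sec, td, hm_S hi]
    show nv (coeff k (valt n (sec n (Polynomial.X ^ i) 5) 1 td)) ≤ cst n k * bnd n i k .up
    rw [h]; exact fin_up (a := 1) (by simpa using bd_HS1) (by linarith) (by norm_num)
  · exact absurd hty (by norm_num)
  · exact absurd hty (by norm_num)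

end

end Vale.Agent.P030.H486
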